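import Vale.Agent.P075.Model

/-! The finite model for P075 (used only in proofs). -/

open MeasureTheory

namespace Vale.Agent.P075

/-- The block of scale `K` at `(n₀,n₁,n₂)`: `∑ f₀(i₀,i₁) f₁(i₁,i₂) f₂(i₂,i₀) s(i₀) s(i₁) s(i₂)`
over `i_v = 2^K n_v + j_v`, `j_v < 2^K`, with `s = 1` for `j < 2^{K-1}` and `s = -1` otherwise. -/
noncomputable def blockSum (K : ℕ) (n : ℕ × ℕ × ℕ) (f : Fin 3 → ℕ → ℕ → ℝ) : ℝ :=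
  ∑ j₀ ∈ Finset.range (2 ^ K), ∑ j₁ ∈ Finset.range (2 ^ K), ∑ j₂ ∈ Finset.range (2 ^ K),
    f 0 (2 ^ K * n.1 + j₀) (2 ^ K * n.2.1 + j₁) * f 1 (2 ^ K * n.2.1 + j₁) (2 ^ K * n.2.2 + j₂) *
      f 2 (2 ^ K * n.2.2 + j₂) (2 ^ K * n.1 + j₀) *
      ((if 2 * j₀ < 2 ^ K then (1 : ℝ) else -1) * (if 2 * j₁ < 2 ^ K then (1 : ℝ) else -1) *
        (if 2 * j₂ < 2 ^ K then (1 : ℝ) else -1))

/-- The bound for the finite model (proved in `Finite.lean`). -/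
def FiniteBound (C : ℝ) : Prop :=
  ∀ (m : ℕ) (f : Fin 3 → ℕ → ℕ → ℝ),
    ∑ K ∈ Finset.Icc 1 m, (1 / 2 ^ K : ℝ) *
        ∑ n₀ ∈ Finset.range (2 ^ (m - K)), ∑ n₁ ∈ Finset.range (2 ^ (m - K)),
          |blockSum K (n₀, n₁, n₀ ^^^ n₁) f| ≤
      C * ∏ v, (∑ i ∈ Finset.range (2 ^ m), ∑ j ∈ Finset.range (2 ^ m), |f v i j| ^ 3) ^ (1 / 3 : ℝ)

/-- The functions `f` seen from the block of scale `K` at `n`. -/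
def shiftf (K : ℕ) (n : ℕ × ℕ × ℕ) (f : Fin 3 → ℕ → ℕ → ℝ) : Fin 3 → ℕ → ℕ → ℝ :=
  ![fun i j => f 0 (2 ^ K * n.1 + i) (2 ^ K * n.2.1 + j),
    fun i j => f 1 (2 ^ K * n.2.1 + i) (2 ^ K * n.2.2 + j),
    fun i j => f 2 (2 ^ K * n.2.2 + i) (2 ^ K * n.1 + j)]

end Vale.Agent.P075
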