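import Mathlib
import Vale.Agent.P075.Defs

/-! Measure theory for P075: the dyadic form of functions from the finite model. -/

open MeasureTheory Filter Topology

namespace Vale.Agent.P075

/-- the half open cell `[i/2^N, (i+1)/2^N)` -/
def cell (N i : ℕ) : Set ℝ := Set.Ico ((i : ℝ) / 2 ^ N) (((i : ℝ) + 1) / 2 ^ N)

theorem measurableSet_cell (N i : ℕ) : MeasurableSet (cell N i) := measurableSet_Ico

theorem mem_cell {N i : ℕ} {x : ℝ} : x ∈ cell N i ↔ 0 ≤ x ∧ ⌊(2 : ℝ) ^ N * x⌋₊ = i := by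
  have h2 : (0 : ℝ) < 2 ^ N := by positivity
  unfold cell
  rw [Set.mem_Ico, div_le_iff₀ h2, lt_div_iff₀ h2]
  constructor
  · rintro ⟨h3, h4⟩
    have hx : 0 ≤ x := by
      by_contra hneg
      push Not at hneg
      have : x * 2 ^ N < 0 := mul_neg_of_neg_of_pos hneg h2
      have hi : (0 : ℝ) ≤ i := Nat.cast_nonneg i
      linarith
    refine ⟨hx, ?_⟩
    rw [Nat.floor_eq_iff (by positivity)]
    constructor <;> linarith
  · rintro ⟨hx, h⟩
    rw [Nat.floor_eq_iff (by positivity)] at h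
    constructor <;> linarith [h.1, h.2]

theorem volume_cell (N i : ℕ) : (volume (cell N i)).toReal = 1 / 2 ^ N := by
  unfold cell
  rw [Real.volume_Ico, ENNReal.toReal_ofReal]
  · ring
  · rw [← sub_div, add_sub_cancel_left]; positivity

theorem volume_cell_ne_top (N i : ℕ) : volume (cell N i) ≠ ⊤ := by
  unfold cell
  rw [Real.volume_Ico]
  exact ENNReal.ofReal_ne_top

/-- scale conversion -/
theorem zpow_scale (K N : ℕ) : (2 : ℝ) ^ ((K : ℤ) - N) = 2 ^ K / 2 ^ N := by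
  rw [zpow_sub₀ (by norm_num)]
  simp

theorem dyadic_eq (N K n : ℕ) :
    dyadic ((K : ℤ) - N) n = ⋃ j ∈ Finset.range (2 ^ K), cell N (2 ^ K * n + j) := by
  have h2 : (0 : ℝ) < 2 ^ N := by positivity
  have hK : (0 : ℝ) < 2 ^ K := by positivity
  ext x
  simp only [dyadic, Set.mem_Ico, Set.mem_iUnion, exists_prop, Finset.mem_range]
  rw [zpow_scale, div_mul_eq_mul_div, div_mul_eq_mul_div, div_le_iff₀ h2, lt_div_iff₀ h2]
  constructor
  · rintro ⟨h3, h4⟩
    have hx : 0 ≤ x := by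
      by_contra hneg
      push Not at hneg
      have : x * 2 ^ N < 0 := mul_neg_of_neg_of_pos hneg h2
      have hi : (0 : ℝ) ≤ 2 ^ K * n := by positivity
      linarith
    have hfl : 2 ^ K * n ≤ ⌊(2 : ℝ) ^ N * x⌋₊ := by
      apply Nat.le_floor
      push_cast
      linarith
    have hfl2 : ⌊(2 : ℝ) ^ N * x⌋₊ < 2 ^ K * (n + 1) := by
      rw [Nat.floor_lt (by positivity)]
      push_cast
      linarith
    refine ⟨⌊(2 : ℝ) ^ N * x⌋₊ - 2 ^ K * n, ?_, ?_⟩
    · have : 2 ^ K * (n + 1) = 2 ^ K * n + 2 ^ K := by ring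
      omega
    · rw [mem_cell]
      exact ⟨hx, by omega⟩
  · rintro ⟨j, hj, hxj⟩
    rw [mem_cell] at hxj
    obtain ⟨hx, hfl⟩ := hxj
    rw [Nat.floor_eq_iff (by positivity)] at hfl
    obtain ⟨h5, h6⟩ := hfl
    push_cast at h5 h6
    have hj' : (j : ℝ) + 1 ≤ 2 ^ K := by exact_mod_cast hj
    have hj0 : (0 : ℝ) ≤ j := Nat.cast_nonneg j
    constructor
    · linarith
    · calc x * 2 ^ N = 2 ^ N * x := by ring
        _ < 2 ^ K * n + j + 1 := h6
        _ ≤ 2 ^ K * (n + 1) := by linarith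

theorem haar_cell {N K n j : ℕ} (hK : 1 ≤ K) (hj : j < 2 ^ K) {x : ℝ}
    (hx : x ∈ cell N (2 ^ K * n + j)) :
    haar ((K : ℤ) - N) n x = if 2 * j < 2 ^ K then 1 else -1 := by
  have h2 : (0 : ℝ) < 2 ^ N := by positivity
  rw [mem_cell] at hx
  obtain ⟨hx0, hfl⟩ := hx
  rw [Nat.floor_eq_iff (by positivity)] at hfl
  obtain ⟨h5, h6⟩ := hfl
  push_cast at h5 h6
  have hj' : (j : ℝ) + 1 ≤ 2 ^ K := by exact_mod_cast hj
  have hj0 : (0 : ℝ) ≤ j := Nat.cast_nonneg j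
  have hleft : x ∈ leftHalf ((K : ℤ) - N) n ↔
      (2 : ℝ) ^ K * n ≤ 2 ^ N * x ∧ 2 ^ N * x < (2 : ℝ) ^ K * (n + 1 / 2) := by
    simp only [leftHalf, Set.mem_Ico]
    rw [zpow_scale, div_mul_eq_mul_div, div_mul_eq_mul_div, div_le_iff₀ h2, lt_div_iff₀ h2,
      mul_comm x]
  have hright : x ∈ rightHalf ((K : ℤ) - N) n ↔
      (2 : ℝ) ^ K * (n + 1 / 2) ≤ 2 ^ N * x ∧ 2 ^ N * x < (2 : ℝ) ^ K * (n + 1) := by
    simp only [rightHalf, Set.mem_Ico]
    rw [zpow_scale, div_mul_eq_mul_div, div_mul_eq_mul_div, div_le_iff₀ h2, lt_div_iff₀ h2,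
      mul_comm x]
  obtain ⟨L, rfl⟩ : ∃ L, K = L + 1 := ⟨K - 1, by omega⟩
  have hpow : (2 : ℝ) ^ (L + 1) = 2 * 2 ^ L := by rw [pow_succ]; ring
  have hpowN : 2 ^ (L + 1) = 2 * 2 ^ L := by rw [pow_succ]; ring
  unfold haar
  split_ifs with h
  · have hj2 : j + 1 ≤ 2 ^ L := by omega
    have hj3 : (j : ℝ) + 1 ≤ 2 ^ L := by exact_mod_cast hj2
    have hl : x ∈ leftHalf (((L + 1 : ℕ) : ℤ) - N) n := by
      rw [hleft]
      constructor
      · linarith
      · rw [hpow] at h6 ⊢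
        linarith
    have hr : x ∉ rightHalf (((L + 1 : ℕ) : ℤ) - N) n := by
      rw [hright]
      rintro ⟨h7, _⟩
      rw [hpow] at h6 h7
      linarith
    rw [Set.indicator_of_mem hl, Set.indicator_of_notMem hr]
    norm_num
  · have hj2 : 2 ^ L ≤ j := by omega
    have hj3 : (2 : ℝ) ^ L ≤ j := by exact_mod_cast hj2
    have hl : x ∉ leftHalf (((L + 1 : ℕ) : ℤ) - N) n := by
      rw [hleft]
      rintro ⟨_, h7⟩
      rw [hpow] at h5 h7
      linarith
    have hr : x ∈ rightHalf (((L + 1 : ℕ) : ℤ) - N) n := by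
      rw [hright]
      constructor
      · rw [hpow] at h5 ⊢
        linarith
      · linarith
    rw [Set.indicator_of_notMem hl, Set.indicator_of_mem hr]
    norm_num

/-- the step function at scale `2^{-N}` with values `g` -/
noncomputable def stepFn (N : ℕ) (g : ℕ → ℕ → ℝ) (x : ℝ × ℝ) : ℝ :=
  g ⌊(2 : ℝ) ^ N * x.1⌋₊ ⌊(2 : ℝ) ^ N * x.2⌋₊

theorem measurable_stepFn (N : ℕ) (g : ℕ → ℕ → ℝ) : Measurable (stepFn N g) := by
  have h1 : Measurable (fun x : ℝ × ℝ => (⌊(2 : ℝ) ^ N * x.1⌋₊, ⌊(2 : ℝ) ^ N * x.2⌋₊)) :=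
    (Nat.measurable_floor.comp (measurable_fst.const_mul _)).prodMk
      (Nat.measurable_floor.comp (measurable_snd.const_mul _))
  exact (measurable_of_countable (fun p : ℕ × ℕ => g p.1 p.2)).comp h1

/-- discretisation of the local form -/
theorem localForm_step (N K : ℕ) (hK : 1 ≤ K) (n : ℕ × ℕ × ℕ) (g : Fin 3 → ℕ → ℕ → ℝ) :
    localForm ((K : ℤ) - N) n (fun v => stepFn N (g v)) =
      (1 / 2 ^ K) * (1 / 4 ^ N) * blockSum K n g := by
  classical
  unfold localForm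
  set I : Finset (ℕ × ℕ × ℕ) :=
    Finset.range (2 ^ K) ×ˢ (Finset.range (2 ^ K) ×ˢ Finset.range (2 ^ K)) with hI
  set c : ℕ × ℕ × ℕ → Set (ℝ × ℝ × ℝ) := fun j =>
    cell N (2 ^ K * n.1 + j.1) ×ˢ (cell N (2 ^ K * n.2.1 + j.2.1) ×ˢ
      cell N (2 ^ K * n.2.2 + j.2.2)) with hc
  have hset : dyadic ((K : ℤ) - N) n.1 ×ˢ (dyadic ((K : ℤ) - N) n.2.1 ×ˢ
      dyadic ((K : ℤ) - N) n.2.2) = ⋃ j ∈ I, c j := by
    rw [dyadic_eq, dyadic_eq, dyadic_eq]
    ext x
    simp only [Set.mem_prod, Set.mem_iUnion, exists_prop, hI, hc, Finset.mem_product]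
    constructor
    · rintro ⟨⟨j0, h0, h0'⟩, ⟨j1, h1, h1'⟩, ⟨j2, h2, h2'⟩⟩
      exact ⟨(j0, j1, j2), ⟨h0, h1, h2⟩, h0', h1', h2'⟩
    · rintro ⟨⟨j0, j1, j2⟩, ⟨h0, h1, h2⟩, h0', h1', h2'⟩
      exact ⟨⟨j0, h0, h0'⟩, ⟨j1, h1, h1'⟩, ⟨j2, h2, h2'⟩⟩
  set Φ : ℝ × ℝ × ℝ → ℝ := fun x => stepFn N (g 0) (x.1, x.2.1) * stepFn N (g 1) (x.2.1, x.2.2) *
      stepFn N (g 2) (x.2.2, x.1) *
      (haar ((K : ℤ) - N) n.1 x.1 * haar ((K : ℤ) - N) n.2.1 x.2.1 *
        haar ((K : ℤ) - N) n.2.2 x.2.2) with hΦ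
  set val : ℕ × ℕ × ℕ → ℝ := fun j =>
    g 0 (2 ^ K * n.1 + j.1) (2 ^ K * n.2.1 + j.2.1) *
      g 1 (2 ^ K * n.2.1 + j.2.1) (2 ^ K * n.2.2 + j.2.2) *
      g 2 (2 ^ K * n.2.2 + j.2.2) (2 ^ K * n.1 + j.1) *
      ((if 2 * j.1 < 2 ^ K then (1 : ℝ) else -1) * (if 2 * j.2.1 < 2 ^ K then (1 : ℝ) else -1) *
        (if 2 * j.2.2 < 2 ^ K then (1 : ℝ) else -1)) with hval
  have hmeas : ∀ j ∈ I, MeasurableSet (c j) := fun j _ =>
    (measurableSet_cell _ _).prod ((measurableSet_cell _ _).prod (measurableSet_cell _ _))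
  have hconst : ∀ j ∈ I, ∀ x ∈ c j, Φ x = val j := by
    intro j hj x hx
    simp only [hI, Finset.mem_product, Finset.mem_range] at hj
    simp only [hc, Set.mem_prod] at hx
    obtain ⟨hx0, hx1, hx2⟩ := hx
    simp only [hΦ, hval, stepFn, haar_cell hK hj.1 hx0, haar_cell hK hj.2.1 hx1,
      haar_cell hK hj.2.2 hx2, (mem_cell.1 hx0).2, (mem_cell.1 hx1).2, (mem_cell.1 hx2).2]
  have hvol : ∀ j, (volume (c j)).toReal = 1 / 2 ^ N * (1 / 2 ^ N * (1 / 2 ^ N)) := by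
    intro j
    simp only [hc]
    rw [Measure.volume_eq_prod, Measure.prod_prod, Measure.volume_eq_prod, Measure.prod_prod,
      ENNReal.toReal_mul, ENNReal.toReal_mul, volume_cell, volume_cell, volume_cell]
  have hvoltop : ∀ j, volume (c j) ≠ ⊤ := by
    intro j
    simp only [hc]
    rw [Measure.volume_eq_prod, Measure.prod_prod, Measure.volume_eq_prod, Measure.prod_prod]
    exact ENNReal.mul_ne_top (volume_cell_ne_top _ _)
      (ENNReal.mul_ne_top (volume_cell_ne_top _ _) (volume_cell_ne_top _ _))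
  have hdisj : Set.Pairwise (I : Set (ℕ × ℕ × ℕ)) (Function.onFun Disjoint c) := by
    intro j _ j' _ hne
    rw [Function.onFun, Set.disjoint_left]
    rintro x ⟨h0, h1, h2⟩ ⟨h0', h1', h2'⟩
    apply hne
    have e0 := (mem_cell.1 h0).2.symm.trans (mem_cell.1 h0').2
    have e1 := (mem_cell.1 h1).2.symm.trans (mem_cell.1 h1').2
    have e2 := (mem_cell.1 h2).2.symm.trans (mem_cell.1 h2').2
    ext
    · omega
    · omega
    · omega
  have hint : ∀ j ∈ I, IntegrableOn Φ (c j) volume := by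
    intro j hj
    apply IntegrableOn.congr_fun (f := fun _ => val j) _ (fun x hx => (hconst j hj x hx).symm)
      (hmeas j hj)
    exact integrableOn_const (hvoltop j)
  rw [hset, integral_biUnion_finset I hmeas hdisj hint]
  have hcell : ∀ j ∈ I, ∫ x in c j, Φ x = 1 / 2 ^ N * (1 / 2 ^ N * (1 / 2 ^ N)) * val j := by
    intro j hj
    rw [setIntegral_congr_fun (hmeas j hj) (hconst j hj), setIntegral_const, Measure.real, hvol j,
      smul_eq_mul]
  rw [Finset.sum_congr rfl hcell, ← Finset.mul_sum]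
  have hsum : ∑ j ∈ I, val j = blockSum K n g := by
    rw [hI, Finset.sum_product]
    unfold blockSum
    apply Finset.sum_congr rfl
    intro j₀ _
    rw [Finset.sum_product]
  rw [hsum, zpow_neg, zpow_scale]
  have h4 : (4 : ℝ) ^ N = 2 ^ N * 2 ^ N := by
    rw [← mul_pow]; norm_num
  rw [h4]
  have h2 : (2 : ℝ) ^ N ≠ 0 := by positivity
  have hK' : (2 : ℝ) ^ K ≠ 0 := by positivity
  field_simp

/-! ### averages -/

/-- the closed square cell as a ball of the sup metric -/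
def cellBall (N i j : ℕ) : Set (ℝ × ℝ) :=
  Metric.closedBall (((i : ℝ) + 1 / 2) / 2 ^ N, ((j : ℝ) + 1 / 2) / 2 ^ N) (1 / 2 ^ (N + 1))

theorem cellBall_eq (N i j : ℕ) : cellBall N i j =
    Set.Icc ((i : ℝ) / 2 ^ N) (((i : ℝ) + 1) / 2 ^ N) ×ˢ
      Set.Icc ((j : ℝ) / 2 ^ N) (((j : ℝ) + 1) / 2 ^ N) := by
  unfold cellBall
  rw [← closedBall_prod_same, Real.closedBall_eq_Icc, Real.closedBall_eq_Icc]
  have h2 : (2 : ℝ) ^ N ≠ 0 := by positivity
  have e1 : ∀ a : ℝ, (a + 1 / 2) / 2 ^ N - 1 / 2 ^ (N + 1) = a / 2 ^ N := by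
    intro a; rw [pow_succ]; field_simp; ring
  have e2 : ∀ a : ℝ, (a + 1 / 2) / 2 ^ N + 1 / 2 ^ (N + 1) = (a + 1) / 2 ^ N := by
    intro a; rw [pow_succ]; field_simp; ring
  rw [e1, e1, e2, e2]

theorem cellBall_ae_eq (N i j : ℕ) :
    (cell N i ×ˢ cell N j : Set (ℝ × ℝ)) =ᵐ[volume] cellBall N i j := by
  rw [cellBall_eq]
  exact Measure.set_prod_ae_eq Ico_ae_eq_Icc Ico_ae_eq_Icc

theorem volume_cellBall (N i j : ℕ) : (volume (cellBall N i j)).toReal = 1 / 4 ^ N := by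
  rw [← measure_congr (cellBall_ae_eq N i j), Measure.volume_eq_prod, Measure.prod_prod,
    ENNReal.toReal_mul, volume_cell, volume_cell]
  have h4 : (4 : ℝ) ^ N = 2 ^ N * 2 ^ N := by
    rw [← mul_pow]; norm_num
  rw [h4]
  field_simp

/-- cell averages -/
noncomputable def avg (N : ℕ) (G : ℝ × ℝ → ℝ) (i j : ℕ) : ℝ := ⨍ y in cellBall N i j, G y

theorem IsTest.integrable {G : ℝ × ℝ → ℝ} (hG : IsTest G) : Integrable G := by
  obtain ⟨M, hM⟩ := hG.bounded
  have h1 : Integrable (Set.indicator (tsupport G) (fun _ => M)) := by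
    rw [integrable_indicator_iff (isClosed_tsupport G).measurableSet]
    exact integrableOn_const hG.compact.measure_lt_top.ne
  refine h1.mono hG.measurable.aestronglyMeasurable (ae_of_all _ fun x => ?_)
  by_cases hx : x ∈ tsupport G
  · rw [Set.indicator_of_mem hx, Real.norm_eq_abs, Real.norm_eq_abs]
    exact (hM x).trans (le_abs_self M)
  · rw [image_eq_zero_of_notMem_tsupport hx]
    simp

theorem IsTest.integrable_cube {G : ℝ × ℝ → ℝ} (hG : IsTest G) :
    Integrable (fun x => |G x| ^ 3) := by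
  obtain ⟨M, hM⟩ := hG.bounded
  have h1 : Integrable (Set.indicator (tsupport G) (fun _ => M ^ 3)) := by
    rw [integrable_indicator_iff (isClosed_tsupport G).measurableSet]
    exact integrableOn_const hG.compact.measure_lt_top.ne
  refine h1.mono ((hG.measurable.abs.pow_const 3).aestronglyMeasurable)
    (ae_of_all _ fun x => ?_)
  by_cases hx : x ∈ tsupport G
  · rw [Set.indicator_of_mem hx, Real.norm_eq_abs, Real.norm_eq_abs]
    rw [abs_of_nonneg (by positivity)]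
    exact (pow_le_pow_left₀ (abs_nonneg _) (hM x) 3).trans (le_abs_self _)
  · rw [image_eq_zero_of_notMem_tsupport hx]
    simp

theorem volume_cellBall_ne_top (N i j : ℕ) : volume (cellBall N i j) ≠ ⊤ :=
  (measure_closedBall_lt_top).ne

theorem volume_cellBall_ne_zero (N i j : ℕ) : volume (cellBall N i j) ≠ 0 :=
  (Metric.measure_closedBall_pos volume _ (by positivity)).ne'

theorem abs_avg_le {G : ℝ × ℝ → ℝ} {M : ℝ} (hM : ∀ x, |G x| ≤ M) (N i j : ℕ) :
    |avg N G i j| ≤ M := by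
  have hv : 0 < volume.real (cellBall N i j) := by
    rw [Measure.real, volume_cellBall]; positivity
  unfold avg
  rw [setAverage_eq, smul_eq_mul, abs_mul, abs_of_pos (inv_pos.2 hv), inv_mul_le_iff₀ hv]
  have h1 := norm_setIntegral_le_of_norm_le_const (μ := volume) (s := cellBall N i j)
    (f := G) (C := M) (volume_cellBall_ne_top N i j).lt_top (fun x _ => hM x)
  rw [Real.norm_eq_abs] at h1
  linarith

/-- Jensen on a cell. -/
theorem cube_avg_le {G : ℝ × ℝ → ℝ} (hG : IsTest G) (N i j : ℕ) :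
    1 / 4 ^ N * |avg N G i j| ^ 3 ≤ ∫ x in cell N i ×ˢ cell N j, |G x| ^ 3 := by
  have hv : 0 < volume.real (cellBall N i j) := by
    rw [Measure.real, volume_cellBall]; positivity
  rw [setIntegral_congr_set (cellBall_ae_eq N i j)]
  have h1 : |avg N G i j| ≤ ⨍ x in cellBall N i j, |G x| := by
    unfold avg
    rw [setAverage_eq, setAverage_eq, smul_eq_mul, smul_eq_mul, abs_mul,
      abs_of_pos (inv_pos.2 hv)]
    apply mul_le_mul_of_nonneg_left _ (inv_pos.2 hv).le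
    exact abs_integral_le_integral_abs
  have h2 : (⨍ x in cellBall N i j, |G x|) ^ 3 ≤ ⨍ x in cellBall N i j, |G x| ^ 3 := by
    have := ConvexOn.map_set_average_le (μ := volume) (t := cellBall N i j)
      (f := fun x => |G x|) (g := fun y : ℝ => y ^ 3) (s := Set.Ici 0)
      (convexOn_pow 3) (continuous_pow 3).continuousOn isClosed_Ici
      (volume_cellBall_ne_zero N i j) (volume_cellBall_ne_top N i j)
      (ae_of_all _ fun x => Set.mem_Ici.2 (abs_nonneg _)) hG.integrable.abs.integrableOn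
      hG.integrable_cube.integrableOn
    exact this
  have h3 : |avg N G i j| ^ 3 ≤ ⨍ x in cellBall N i j, |G x| ^ 3 :=
    (pow_le_pow_left₀ (abs_nonneg _) h1 3).trans h2
  rw [setAverage_eq, smul_eq_mul] at h3
  have h4 : volume.real (cellBall N i j) = 1 / 4 ^ N := volume_cellBall N i j
  rw [h4] at h3
  have h5 : (0 : ℝ) < 1 / 4 ^ N := by positivity
  calc 1 / 4 ^ N * |avg N G i j| ^ 3
      ≤ 1 / 4 ^ N * ((1 / 4 ^ N)⁻¹ * ∫ x in cellBall N i j, |G x| ^ 3) :=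
        mul_le_mul_of_nonneg_left h3 h5.le
    _ = ∫ x in cellBall N i j, |G x| ^ 3 := by
        rw [← mul_assoc, mul_inv_cancel₀ h5.ne', one_mul]

theorem sum_cube_avg_le {G : ℝ × ℝ → ℝ} (hG : IsTest G) (N m : ℕ) :
    1 / 4 ^ N * ∑ i ∈ Finset.range (2 ^ m), ∑ j ∈ Finset.range (2 ^ m), |avg N G i j| ^ 3 ≤
      ∫ x in Set.Ici (0 : ℝ) ×ˢ Set.Ici (0 : ℝ), |G x| ^ 3 := by
  classical
  rw [← Finset.sum_product', Finset.mul_sum]
  calc ∑ p ∈ Finset.range (2 ^ m) ×ˢ Finset.range (2 ^ m), 1 / 4 ^ N * |avg N G p.1 p.2| ^ 3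
      ≤ ∑ p ∈ Finset.range (2 ^ m) ×ˢ Finset.range (2 ^ m),
          ∫ x in cell N p.1 ×ˢ cell N p.2, |G x| ^ 3 :=
        Finset.sum_le_sum (fun p _ => cube_avg_le hG N p.1 p.2)
    _ = ∫ x in ⋃ p ∈ Finset.range (2 ^ m) ×ˢ Finset.range (2 ^ m),
          (cell N p.1 ×ˢ cell N p.2 : Set (ℝ × ℝ)), |G x| ^ 3 := by
        rw [integral_biUnion_finset]
        · exact fun p _ => (measurableSet_cell _ _).prod (measurableSet_cell _ _)
        · intro p _ p' _ hne
          rw [Function.onFun, Set.disjoint_left]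
          rintro x ⟨h0, h1⟩ ⟨h0', h1'⟩
          apply hne
          exact Prod.ext ((mem_cell.1 h0).2.symm.trans (mem_cell.1 h0').2)
            ((mem_cell.1 h1).2.symm.trans (mem_cell.1 h1').2)
        · exact fun p _ => hG.integrable_cube.integrableOn
    _ ≤ ∫ x in Set.Ici (0 : ℝ) ×ˢ Set.Ici (0 : ℝ), |G x| ^ 3 := by
        apply setIntegral_mono_set hG.integrable_cube.integrableOn
          (ae_of_all _ fun x => by positivity)
        apply LE.le.eventuallyLE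
        intro x hx
        simp only [Set.mem_iUnion, exists_prop] at hx
        obtain ⟨p, _, h0, h1⟩ := hx
        exact ⟨(mem_cell.1 h0).1, (mem_cell.1 h1).1⟩

/-- a.e. convergence of the averages on the quadrant -/
theorem ae_tendsto_step {G : ℝ × ℝ → ℝ} (hG : IsTest G) :
    ∀ᵐ x : ℝ × ℝ, (0 ≤ x.1 ∧ 0 ≤ x.2) →
      Tendsto (fun N => stepFn N (avg N G) x) atTop (𝓝 (G x)) := by
  have h := IsUnifLocDoublingMeasure.ae_tendsto_average (μ := (volume : Measure (ℝ × ℝ)))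
    hG.integrable.locallyIntegrable 1
  filter_upwards [h] with x hx hx0
  apply hx (fun N : ℕ => (((⌊(2 : ℝ) ^ N * x.1⌋₊ : ℝ) + 1 / 2) / 2 ^ N,
    ((⌊(2 : ℝ) ^ N * x.2⌋₊ : ℝ) + 1 / 2) / 2 ^ N)) (fun N : ℕ => 1 / 2 ^ (N + 1))
  · rw [tendsto_nhdsWithin_iff]
    constructor
    · have h1 := tendsto_pow_atTop_nhds_zero_of_lt_one (r := (1 / 2 : ℝ)) (by norm_num)
        (by norm_num)
      have h2 := h1.comp (tendsto_add_atTop_nat 1)
      refine h2.congr (fun N => ?_)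
      simp
    · exact Eventually.of_forall (fun N => by
        rw [Set.mem_Ioi]; positivity)
  · refine Eventually.of_forall (fun N => ?_)
    rw [one_mul]
    change x ∈ cellBall N _ _
    rw [cellBall_eq]
    have h1 : x.1 ∈ cell N ⌊(2 : ℝ) ^ N * x.1⌋₊ := mem_cell.2 ⟨hx0.1, rfl⟩
    have h2 : x.2 ∈ cell N ⌊(2 : ℝ) ^ N * x.2⌋₊ := mem_cell.2 ⟨hx0.2, rfl⟩
    exact ⟨Set.Ico_subset_Icc_self h1, Set.Ico_subset_Icc_self h2⟩

theorem dyadic_nonneg {k : ℤ} {n : ℕ} {x : ℝ} (hx : x ∈ dyadic k n) : 0 ≤ x := by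
  have h : (0 : ℝ) < 2 ^ k := by positivity
  have : 0 ≤ (2 : ℝ) ^ k * n := by positivity
  exact this.trans hx.1

theorem measurable_haar (k : ℤ) (n : ℕ) : Measurable (haar k n) := by
  unfold haar leftHalf rightHalf
  exact (measurable_const.indicator measurableSet_Ico).sub
    (measurable_const.indicator measurableSet_Ico)

theorem abs_haar_le (k : ℤ) (n : ℕ) (x : ℝ) : |haar k n x| ≤ 1 := by
  unfold haar
  by_cases hl : x ∈ leftHalf k n <;> by_cases hr : x ∈ rightHalf k n <;>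
    simp [hl, hr]

/-- convergence of the local form under cell averaging -/
theorem tendsto_localForm (F : Fin 3 → ℝ × ℝ → ℝ) (hF : ∀ v, IsTest (F v)) (k : ℤ)
    (n : ℕ × ℕ × ℕ) :
    Tendsto (fun N : ℕ => localForm k n (fun v => stepFn N (avg N (F v)))) atTop
      (𝓝 (localForm k n F)) := by
  unfold localForm
  apply Tendsto.const_mul
  choose M hM using fun v => (hF v).bounded
  have hM0 : ∀ v, 0 ≤ M v := fun v => (abs_nonneg _).trans (hM v 0)
  set B : Set (ℝ × ℝ × ℝ) := dyadic k n.1 ×ˢ (dyadic k n.2.1 ×ˢ dyadic k n.2.2) with hB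
  have hBm : MeasurableSet B := by
    exact measurableSet_Ico.prod (measurableSet_Ico.prod measurableSet_Ico)
  have hBfin : volume B ≠ ⊤ := by
    rw [hB, Measure.volume_eq_prod, Measure.prod_prod, Measure.volume_eq_prod, Measure.prod_prod]
    unfold dyadic
    rw [Real.volume_Ico, Real.volume_Ico, Real.volume_Ico]
    exact ENNReal.mul_ne_top ENNReal.ofReal_ne_top
      (ENNReal.mul_ne_top ENNReal.ofReal_ne_top ENNReal.ofReal_ne_top)
  have hq0 : Measure.QuasiMeasurePreserving (fun x : ℝ × ℝ × ℝ => (x.1, x.2.1)) volume volume :=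
    QuasiMeasurePreserving.prodMap (Measure.QuasiMeasurePreserving.id volume)
      Measure.quasiMeasurePreserving_fst
  have hq1 : Measure.QuasiMeasurePreserving (fun x : ℝ × ℝ × ℝ => (x.2.1, x.2.2)) volume volume :=
    Measure.quasiMeasurePreserving_snd
  have hq2 : Measure.QuasiMeasurePreserving (fun x : ℝ × ℝ × ℝ => (x.2.2, x.1)) volume volume :=
    (Measure.measurePreserving_swap.quasiMeasurePreserving).comp
      (QuasiMeasurePreserving.prodMap (Measure.QuasiMeasurePreserving.id volume)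
        Measure.quasiMeasurePreserving_snd)
  apply tendsto_integral_of_dominated_convergence (fun _ => M 0 * M 1 * M 2 * 1)
  · intro N
    apply Measurable.aestronglyMeasurable
    apply Measurable.mul
    · exact (((measurable_stepFn N _).comp (by fun_prop)).mul
        ((measurable_stepFn N _).comp (by fun_prop))).mul
        ((measurable_stepFn N _).comp (by fun_prop))
    · exact (((measurable_haar k n.1).comp (by fun_prop)).mul
        ((measurable_haar k n.2.1).comp (by fun_prop))).mul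
        ((measurable_haar k n.2.2).comp (by fun_prop))
  · exact integrableOn_const hBfin
  · intro N
    refine ae_of_all _ (fun x => ?_)
    rw [Real.norm_eq_abs, abs_mul, abs_mul, abs_mul, abs_mul, abs_mul]
    have hs : ∀ v y, |stepFn N (avg N (F v)) y| ≤ M v := fun v y =>
      abs_avg_le (hM v) N _ _
    apply mul_le_mul
    · apply mul_le_mul
      · exact mul_le_mul (hs 0 _) (hs 1 _) (abs_nonneg _) (hM0 0)
      · exact hs 2 _
      · exact abs_nonneg _
      · exact mul_nonneg (hM0 0) (hM0 1)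
    · have h1 := abs_haar_le k n.1 x.1
      have h2 := abs_haar_le k n.2.1 x.2.1
      have h3 := abs_haar_le k n.2.2 x.2.2
      have h4 : |haar k n.1 x.1| * |haar k n.2.1 x.2.1| ≤ 1 :=
        mul_le_one₀ h1 (abs_nonneg _) h2
      exact mul_le_one₀ h4 (abs_nonneg _) h3
    · positivity
    · exact mul_nonneg (mul_nonneg (hM0 0) (hM0 1)) (hM0 2)
  · have a0 := hq0.ae (ae_tendsto_step (hF 0))
    have a1 := hq1.ae (ae_tendsto_step (hF 1))
    have a2 := hq2.ae (ae_tendsto_step (hF 2))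
    rw [ae_restrict_iff' hBm]
    filter_upwards [a0, a1, a2] with x h0 h1 h2 hx
    obtain ⟨hx0, hx1, hx2⟩ := hx
    have p0 := dyadic_nonneg hx0
    have p1 := dyadic_nonneg hx1
    have p2 := dyadic_nonneg hx2
    apply Tendsto.mul_const
    exact ((h0 ⟨p0, p1⟩).mul (h1 ⟨p1, p2⟩)).mul (h2 ⟨p2, p0⟩)

theorem sum_blockSum_le {C : ℝ} (h : FiniteBound C) (f : Fin 3 → ℕ → ℕ → ℝ)
    (T : Finset (ℤ × (ℕ × ℕ × ℕ))) (hT : ∀ t ∈ T, t.2 ∈ Adm) (N : ℕ)
    (hN : ∀ t ∈ T, 1 ≤ t.1 + N) :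
    ∃ m : ℕ, ∑ t ∈ T, (1 / 2 ^ (t.1 + N).toNat : ℝ) * |blockSum (t.1 + N).toNat t.2 f| ≤
      C * ∏ v, (∑ i ∈ Finset.range (2 ^ m), ∑ j ∈ Finset.range (2 ^ m), |f v i j| ^ 3) ^
        (1 / 3 : ℝ) := by
  classical
  refine ⟨∑ t ∈ T, ((t.1 + N).toNat + t.2.1 + t.2.2.1), ?_⟩
  set m := ∑ t ∈ T, ((t.1 + N).toNat + t.2.1 + t.2.2.1) with hm
  refine le_trans ?_ (h m f)
  have hle : ∀ t ∈ T, (t.1 + N).toNat + t.2.1 + t.2.2.1 ≤ m := by
    intro t ht
    exact Finset.single_le_sum (f := fun t : ℤ × (ℕ × ℕ × ℕ) =>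
      (t.1 + N).toNat + t.2.1 + t.2.2.1) (fun _ _ => Nat.zero_le _) ht
  set φ : ℤ × (ℕ × ℕ × ℕ) → (Σ _ : ℕ, ℕ × ℕ) :=
    fun t => ⟨(t.1 + N).toNat, (t.2.1, t.2.2.1)⟩ with hφ
  set G : (Σ _ : ℕ, ℕ × ℕ) → ℝ := fun y =>
    (1 / 2 ^ y.1 : ℝ) * |blockSum y.1 (y.2.1, y.2.2, y.2.1 ^^^ y.2.2) f| with hG
  have hadm : ∀ t ∈ T, t.2.2.2 = t.2.1 ^^^ t.2.2.1 := by
    intro t ht
    have h1 := hT t ht
    simp only [Adm, Set.mem_ofPred_eq] at h1
    exact (Nat.xor_eq_zero_iff.1 h1).symm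
  have hinj : Set.InjOn φ (T : Set (ℤ × (ℕ × ℕ × ℕ))) := by
    intro t ht t' ht' heq
    have ht := Finset.mem_coe.1 ht
    have ht' := Finset.mem_coe.1 ht'
    simp only [hφ, Sigma.mk.injEq, heq_eq_eq, Prod.mk.injEq] at heq
    obtain ⟨e1, e2, e3⟩ := heq
    have k1 := hN t ht
    have k2 := hN t' ht'
    have e4 : t.2.2.2 = t'.2.2.2 := by rw [hadm t ht, hadm t' ht', e2, e3]
    have e5 : t.1 = t'.1 := by omega
    exact Prod.ext e5 (Prod.ext e2 (Prod.ext e3 e4))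
  have hL : ∑ t ∈ T, (1 / 2 ^ (t.1 + N).toNat : ℝ) * |blockSum (t.1 + N).toNat t.2 f| =
      ∑ y ∈ T.image φ, G y := by
    rw [Finset.sum_image hinj]
    apply Finset.sum_congr rfl
    intro t ht
    simp only [hG, hφ]
    have : t.2 = (t.2.1, t.2.2.1, t.2.1 ^^^ t.2.2.1) :=
      Prod.ext rfl (Prod.ext rfl (hadm t ht))
    rw [← this]
  have hR : ∑ K ∈ Finset.Icc 1 m, (1 / 2 ^ K : ℝ) *
        ∑ n₀ ∈ Finset.range (2 ^ (m - K)), ∑ n₁ ∈ Finset.range (2 ^ (m - K)),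
          |blockSum K (n₀, n₁, n₀ ^^^ n₁) f| =
      ∑ y ∈ (Finset.Icc 1 m).sigma
        (fun K => Finset.range (2 ^ (m - K)) ×ˢ Finset.range (2 ^ (m - K))), G y := by
    rw [Finset.sum_sigma]
    apply Finset.sum_congr rfl
    intro K _
    rw [Finset.sum_product, Finset.mul_sum]
    apply Finset.sum_congr rfl
    intro n₀ _
    rw [Finset.mul_sum]
  rw [hL, hR]
  apply Finset.sum_le_sum_of_subset_of_nonneg
  · intro y hy
    rw [Finset.mem_image] at hy
    obtain ⟨t, ht, rfl⟩ := hy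
    have h1 := hle t ht
    have h2 := hN t ht
    simp only [hφ, Finset.mem_sigma, Finset.mem_Icc, Finset.mem_product, Finset.mem_range]
    refine ⟨⟨by omega, by omega⟩, ?_, ?_⟩
    · calc t.2.1 < 2 ^ t.2.1 := Nat.lt_two_pow_self
        _ ≤ 2 ^ (m - (t.1 + N).toNat) := Nat.pow_le_pow_right (by norm_num) (by omega)
    · calc t.2.2.1 < 2 ^ t.2.2.1 := Nat.lt_two_pow_self
        _ ≤ 2 ^ (m - (t.1 + N).toNat) := Nat.pow_le_pow_right (by norm_num) (by omega)
  · intro y _ _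
    simp only [hG]
    positivity

theorem localForm_sum_le_of_finite {C : ℝ} (hC : 0 ≤ C) (h : FiniteBound C)
    (F : Fin 3 → ℝ × ℝ → ℝ) (hF : ∀ v, IsTest (F v))
    (T : Finset (ℤ × (ℕ × ℕ × ℕ))) (hT : ∀ t ∈ T, t.2 ∈ Adm) :
    ∑ t ∈ T, |localForm t.1 t.2 F| ≤ C * ∏ v, norm3 (F v) := by
  classical
  have hlim : Tendsto (fun N : ℕ => ∑ t ∈ T,
      |localForm t.1 t.2 (fun v => stepFn N (avg N (F v)))|) atTop
      (𝓝 (∑ t ∈ T, |localForm t.1 t.2 F|)) :=
    tendsto_finsetSum T (fun t _ => (tendsto_localForm F hF t.1 t.2).abs)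
  apply le_of_tendsto hlim
  -- eventually all scales are positive
  have hev : ∀ᶠ N : ℕ in atTop, ∀ t ∈ T, 1 ≤ t.1 + N := by
    rw [Filter.eventually_all_finset]
    intro t _
    filter_upwards [eventually_ge_atTop (1 - t.1).toNat] with N hN
    omega
  filter_upwards [hev] with N hN
  obtain ⟨m, hm⟩ := sum_blockSum_le h (fun v => avg N (F v)) T hT N hN
  have h4 : (0 : ℝ) < 1 / 4 ^ N := by positivity
  have e1 : ∑ t ∈ T, |localForm t.1 t.2 (fun v => stepFn N (avg N (F v)))| =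
      1 / 4 ^ N * ∑ t ∈ T, (1 / 2 ^ (t.1 + N).toNat : ℝ) *
        |blockSum (t.1 + N).toNat t.2 (fun v => avg N (F v))| := by
    rw [Finset.mul_sum]
    apply Finset.sum_congr rfl
    intro t ht
    have h1 := hN t ht
    have h2 : t.1 = (((t.1 + N).toNat : ℕ) : ℤ) - N := by
      rw [Int.toNat_of_nonneg (by omega)]; ring
    have h3 : 1 ≤ (t.1 + N).toNat := by omega
    conv_lhs => rw [h2]
    rw [localForm_step N _ h3, abs_mul, abs_mul, abs_of_pos h4,
      abs_of_pos (by positivity : (0 : ℝ) < 1 / 2 ^ (t.1 + N).toNat)]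
    ring
  rw [e1]
  have hS0 : ∀ v, 0 ≤ ∑ i ∈ Finset.range (2 ^ m), ∑ j ∈ Finset.range (2 ^ m),
      |avg N (F v) i j| ^ 3 := fun v =>
    Finset.sum_nonneg (fun _ _ => Finset.sum_nonneg (fun _ _ => by positivity))
  calc 1 / 4 ^ N * ∑ t ∈ T, (1 / 2 ^ (t.1 + N).toNat : ℝ) *
        |blockSum (t.1 + N).toNat t.2 (fun v => avg N (F v))|
      ≤ 1 / 4 ^ N * (C * ∏ v, (∑ i ∈ Finset.range (2 ^ m), ∑ j ∈ Finset.range (2 ^ m),
          |avg N (F v) i j| ^ 3) ^ (1 / 3 : ℝ)) := mul_le_mul_of_nonneg_left hm h4.le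
    _ = C * ∏ v, (1 / 4 ^ N * ∑ i ∈ Finset.range (2 ^ m), ∑ j ∈ Finset.range (2 ^ m),
          |avg N (F v) i j| ^ 3) ^ (1 / 3 : ℝ) := by
        have e2 : ∀ v, (1 / 4 ^ N * ∑ i ∈ Finset.range (2 ^ m), ∑ j ∈ Finset.range (2 ^ m),
          |avg N (F v) i j| ^ 3) ^ (1 / 3 : ℝ) = (1 / 4 ^ N : ℝ) ^ (1 / 3 : ℝ) *
            (∑ i ∈ Finset.range (2 ^ m), ∑ j ∈ Finset.range (2 ^ m),
              |avg N (F v) i j| ^ 3) ^ (1 / 3 : ℝ) := fun v =>
          Real.mul_rpow h4.le (hS0 v)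
        have e3 : ((1 / 4 ^ N : ℝ) ^ (1 / 3 : ℝ)) ^ 3 = 1 / 4 ^ N := by
          have := Real.rpow_natCast ((1 / 4 ^ N : ℝ) ^ (1 / 3 : ℝ)) 3
          rw [← this, ← Real.rpow_mul h4.le]
          norm_num
        rw [Finset.prod_congr rfl (fun v _ => e2 v), Finset.prod_mul_distrib, Finset.prod_const,
          Finset.card_univ, Fintype.card_fin, e3]
        ring
    _ ≤ C * ∏ v, norm3 (F v) := by
        apply mul_le_mul_of_nonneg_left _ hC
        apply Finset.prod_le_prod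
        · intro v _
          exact Real.rpow_nonneg (mul_nonneg h4.le (hS0 v)) _
        · intro v _
          exact Real.rpow_le_rpow (mul_nonneg h4.le (hS0 v)) (sum_cube_avg_le (hF v) N m)
            (by norm_num)

/-- absolute summability of the local forms at each scale -/
theorem summable_localForm {C : ℝ} (hC : 0 ≤ C) (h : FiniteBound C)
    (F : Fin 3 → ℝ × ℝ → ℝ) (hF : ∀ v, IsTest (F v)) (k : ℤ) :
    Summable (fun n : Adm => |localForm k n F|) := by
  classical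
  apply summable_of_sum_le (c := C * ∏ v, norm3 (F v)) (fun n => abs_nonneg _)
  intro U
  have := localForm_sum_le_of_finite hC h F hF
    (U.map ⟨fun n : Adm => ((k, (n : ℕ × ℕ × ℕ)) : ℤ × (ℕ × ℕ × ℕ)),
      fun a b hab => Subtype.ext (Prod.mk.inj hab).2⟩) (by
      intro t ht
      rw [Finset.mem_map] at ht
      obtain ⟨n, _, rfl⟩ := ht
      exact n.2)
  rw [Finset.sum_map] at this
  exact this

/-- the sum over all scales and all admissible triples -/
theorem sum_scales_le {C : ℝ} (hC : 0 ≤ C) (h : FiniteBound C)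
    (F : Fin 3 → ℝ × ℝ → ℝ) (hF : ∀ v, IsTest (F v)) (S : Finset ℤ) :
    ∑ k ∈ S, ∑' n : Adm, |localForm k n F| ≤ C * ∏ v, norm3 (F v) := by
  classical
  rw [← Summable.tsum_finsetSum (fun k _ => summable_localForm hC h F hF k)]
  apply Real.tsum_le_of_sum_le (fun n => Finset.sum_nonneg (fun k _ => abs_nonneg _))
  intro U
  have := localForm_sum_le_of_finite hC h F hF
    ((U ×ˢ S).map ⟨fun p : Adm × ℤ => ((p.2, (p.1 : ℕ × ℕ × ℕ)) : ℤ × (ℕ × ℕ × ℕ)),
      fun a b hab => Prod.ext (Subtype.ext (Prod.mk.inj hab).2) (Prod.mk.inj hab).1⟩) (by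
      intro t ht
      rw [Finset.mem_map] at ht
      obtain ⟨n, _, rfl⟩ := ht
      exact n.1.2)
  rw [Finset.sum_map, Finset.sum_product] at this
  exact this

theorem abs_dyadicForm_le {C : ℝ} (hC : 0 ≤ C) (h : FiniteBound C)
    (F : Fin 3 → ℝ × ℝ → ℝ) (hF : ∀ v, IsTest (F v)) (S : Finset ℤ) (ε : ℤ → ℝ)
    (hε : ∀ k, |ε k| ≤ 1) :
    |dyadicForm S ε F| ≤ C * ∏ v, norm3 (F v) := by
  unfold dyadicForm
  calc |∑ k ∈ S, ε k * ∑' n : Adm, localForm k n F|
      ≤ ∑ k ∈ S, |ε k * ∑' n : Adm, localForm k n F| := Finset.abs_sum_le_sum_abs _ _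
    _ ≤ ∑ k ∈ S, ∑' n : Adm, |localForm k n F| := by
        apply Finset.sum_le_sum
        intro k _
        rw [abs_mul]
        have hs := summable_localForm hC h F hF k
        have h1 : |∑' n : Adm, localForm k n F| ≤ ∑' n : Adm, |localForm k n F| := by
          have := norm_tsum_le_tsum_norm (f := fun n : Adm => localForm k n F)
            (by simpa [Real.norm_eq_abs] using hs)
          simpa [Real.norm_eq_abs] using this
        calc |ε k| * |∑' n : Adm, localForm k n F|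
            ≤ 1 * ∑' n : Adm, |localForm k n F| :=
              mul_le_mul (hε k) h1 (abs_nonneg _) (by norm_num)
          _ = _ := one_mul _
    _ ≤ C * ∏ v, norm3 (F v) := sum_scales_le hC h F hF S

end Vale.Agent.P075
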