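import Vale.Agent.P075.Defs

/-! Matrix core for P075: trace inequalities for real positive semidefinite matrices. -/

open Matrix

set_option linter.unusedSectionVars false

namespace Vale.Agent.P075

section basics

variable {n m : Type*} [Fintype n] [DecidableEq n] [Fintype m] [DecidableEq m]

lemma psd_symm {A : Matrix n n ℝ} (hA : A.PosSemidef) : Aᵀ = A := by
  have := hA.isHermitian
  rwa [Matrix.IsHermitian, conjTranspose_eq_transpose_of_trivial] at this

lemma psd_of {A : Matrix n n ℝ} (hs : Aᵀ = A) (h : ∀ x : n → ℝ, 0 ≤ x ⬝ᵥ (A *ᵥ x)) :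
    A.PosSemidef :=
  PosSemidef.of_dotProduct_mulVec_nonneg
    (by rw [Matrix.IsHermitian, conjTranspose_eq_transpose_of_trivial, hs])
    (fun x => by simpa using h x)

lemma psd_dot {A : Matrix n n ℝ} (hA : A.PosSemidef) (x : n → ℝ) : 0 ≤ x ⬝ᵥ (A *ᵥ x) := by
  simpa using hA.dotProduct_mulVec_nonneg x

lemma psd_conj {A : Matrix n n ℝ} (hA : A.PosSemidef) (B : Matrix n m ℝ) :
    (Bᵀ * A * B).PosSemidef := by
  have := hA.conjTranspose_mul_mul_same B
  rwa [conjTranspose_eq_transpose_of_trivial] at this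

lemma psd_conj' {A : Matrix n n ℝ} (hA : A.PosSemidef) (B : Matrix m n ℝ) :
    (B * A * Bᵀ).PosSemidef := by
  have := psd_conj hA Bᵀ
  rwa [transpose_transpose] at this

lemma psd_tmul (B : Matrix n m ℝ) : (Bᵀ * B).PosSemidef := by
  have := posSemidef_conjTranspose_mul_self B
  rwa [conjTranspose_eq_transpose_of_trivial] at this

lemma psd_mult (B : Matrix n m ℝ) : (B * Bᵀ).PosSemidef := by
  have := psd_tmul Bᵀ
  rwa [transpose_transpose] at this

/-- Orthogonal diagonalization of a real symmetric matrix. -/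
lemma exists_diag {M : Matrix n n ℝ} (hM : Mᵀ = M) :
    ∃ (U : Matrix n n ℝ) (μ : n → ℝ), U * Uᵀ = 1 ∧ Uᵀ * U = 1 ∧ M = U * diagonal μ * Uᵀ ∧
      (M.PosSemidef → ∀ i, 0 ≤ μ i) := by
  have hH : M.IsHermitian := by
    rw [Matrix.IsHermitian, conjTranspose_eq_transpose_of_trivial, hM]
  refine ⟨(hH.eigenvectorUnitary : Matrix n n ℝ), hH.eigenvalues, ?_, ?_, ?_, ?_⟩
  · have := Unitary.coe_mul_star_self hH.eigenvectorUnitary
    rwa [Unitary.coe_star, star_eq_conjTranspose, conjTranspose_eq_transpose_of_trivial] at this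
  · have := Unitary.coe_star_mul_self hH.eigenvectorUnitary
    rwa [star_eq_conjTranspose, conjTranspose_eq_transpose_of_trivial] at this
  · have := hH.spectral_theorem
    rw [Unitary.conjStarAlgAut_apply] at this
    conv_lhs => rw [this]
    rw [star_eq_conjTranspose, conjTranspose_eq_transpose_of_trivial]
    rfl
  · intro h i
    exact h.eigenvalues_nonneg i

lemma psd_diag {d : n → ℝ} (hd : ∀ i, 0 ≤ d i) : (diagonal d).PosSemidef :=
  PosSemidef.diagonal hd

/-- A square root. -/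
lemma exists_sqrt {G : Matrix n n ℝ} (hG : G.PosSemidef) :
    ∃ R : Matrix n n ℝ, R.PosSemidef ∧ R * R = G := by
  obtain ⟨U, μ, h1, h2, h3, h4⟩ := exists_diag (psd_symm hG)
  refine ⟨U * diagonal (fun i => Real.sqrt (μ i)) * Uᵀ, psd_conj' (psd_diag fun i => Real.sqrt_nonneg _) U, ?_⟩
  have : U * diagonal (fun i => Real.sqrt (μ i)) * Uᵀ * (U * diagonal (fun i => Real.sqrt (μ i)) * Uᵀ)
      = U * (diagonal (fun i => Real.sqrt (μ i)) * (Uᵀ * U) * diagonal (fun i => Real.sqrt (μ i))) * Uᵀ := by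
    simp only [Matrix.mul_assoc]
  rw [this, h2, Matrix.mul_one, diagonal_mul_diagonal, h3]
  congr 3
  funext i
  exact Real.mul_self_sqrt (h4 hG i)

lemma trace_mul_nonneg {A B : Matrix n n ℝ} (hA : A.PosSemidef) (hB : B.PosSemidef) :
    0 ≤ trace (A * B) := by
  obtain ⟨R, hR, rfl⟩ := exists_sqrt hA
  have := (psd_conj hB R).trace_nonneg
  rw [psd_symm hR] at this
  rwa [trace_mul_comm, ← Matrix.mul_assoc] at this

/-- The chosen square root. -/
noncomputable def msqrt (G : Matrix n n ℝ) : Matrix n n ℝ :=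
  open Classical in if h : G.PosSemidef then (exists_sqrt h).choose else 0

lemma msqrt_psd (G : Matrix n n ℝ) : (msqrt G).PosSemidef := by
  unfold msqrt
  split_ifs with h
  · exact (exists_sqrt h).choose_spec.1
  · exact PosSemidef.zero

lemma msqrt_mul {G : Matrix n n ℝ} (hG : G.PosSemidef) : msqrt G * msqrt G = G := by
  unfold msqrt
  rw [dif_pos hG]
  exact (exists_sqrt hG).choose_spec.2

/-- `tau G = tr G^{3/2}`. -/
noncomputable def tau (G : Matrix n n ℝ) : ℝ := trace (msqrt G * msqrt G * msqrt G)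

lemma young {R K : Matrix n n ℝ} (hR : R.PosSemidef) (hK : K.PosSemidef) :
    3 / 2 * trace (R * R * K) - 1 / 2 * trace (K * K * K) ≤ trace (R * R * R) := by
  have hS : (R + (1 / 2 : ℝ) • K).PosSemidef := hR.add (hK.smul (by norm_num))
  have h0 := (psd_conj hS (R - K)).trace_nonneg
  rw [transpose_sub, psd_symm hR, psd_symm hK] at h0
  have c1 : trace (R * K * R) = trace (R * R * K) := by
    rw [trace_mul_comm, Matrix.mul_assoc]
  have c2 : trace (K * R * R) = trace (R * R * K) := by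
    rw [Matrix.mul_assoc, trace_mul_comm]
  have c3 : trace (K * R * K) = trace (R * K * K) := by
    rw [Matrix.mul_assoc, trace_mul_comm]
  have c4 : trace (K * K * R) = trace (R * K * K) := by
    rw [trace_mul_comm, Matrix.mul_assoc]
  simp only [Matrix.mul_add, Matrix.add_mul, Matrix.mul_sub, Matrix.sub_mul, trace_add, trace_sub,
    Matrix.mul_smul, Matrix.smul_mul, trace_smul, smul_eq_mul, c1, c2, c3, c4] at h0
  linarith

lemma tau_young {G K : Matrix n n ℝ} (hG : G.PosSemidef) (hK : K.PosSemidef) :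
    3 / 2 * trace (G * K) - 1 / 2 * trace (K * K * K) ≤ tau G := by
  have := young (msqrt_psd G) hK
  unfold tau
  rwa [msqrt_mul hG] at this ⊢

lemma tau_nonneg (G : Matrix n n ℝ) : 0 ≤ tau G := by
  have h := msqrt_psd G
  have := (psd_conj h (msqrt G)).trace_nonneg
  rwa [psd_symm h] at this

lemma mul_eq_zero_of_trace {S : Matrix n n ℝ} (hS : S.PosSemidef) {W : Matrix n m ℝ}
    (h : trace (Wᵀ * S * W) = 0) : S * W = 0 := by
  obtain ⟨T, hT, rfl⟩ := exists_sqrt hS
  have h1 : trace ((T * W)ᵀ * (T * W)) = 0 := by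
    rw [transpose_mul, psd_symm hT]
    rwa [← Matrix.mul_assoc, Matrix.mul_assoc Wᵀ]
  have h2 : T * W = 0 := by
    rw [← conjTranspose_eq_transpose_of_trivial] at h1
    exact trace_conjTranspose_mul_self_eq_zero_iff.mp h1
  rw [Matrix.mul_assoc, h2, Matrix.mul_zero]

lemma tau_flip (Y : Matrix n m ℝ) : tau (Y * Yᵀ) = tau (Yᵀ * Y) := by
  have hS := msqrt_psd (Y * Yᵀ)
  have hR := msqrt_psd (Yᵀ * Y)
  have eS := msqrt_mul (psd_mult Y)
  have eR := msqrt_mul (psd_tmul Y)
  unfold tau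
  generalize msqrt (Y * Yᵀ) = S at *
  generalize msqrt (Yᵀ * Y) = R at *
  set W := Y * R - S * Y with hW
  have hSW : S * W + W * R = 0 := by
    rw [hW, Matrix.mul_sub, Matrix.sub_mul, ← Matrix.mul_assoc S S Y, Matrix.mul_assoc Y R R, eS, eR,
      Matrix.mul_assoc Y Yᵀ Y, ← Matrix.mul_assoc S Y R]
    abel
  have t1 : 0 ≤ trace (Wᵀ * S * W) := (psd_conj hS W).trace_nonneg
  have t2 : 0 ≤ trace (W * R * Wᵀ) := (psd_conj' hR W).trace_nonneg
  have t3 : trace (Wᵀ * S * W) + trace (W * R * Wᵀ) = 0 := by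
    rw [trace_mul_comm (W * R), Matrix.mul_assoc Wᵀ S W, ← trace_add, ← Matrix.mul_add, hSW,
      Matrix.mul_zero, trace_zero]
  have h1 : S * W = 0 := mul_eq_zero_of_trace hS (by linarith)
  have h2 : W * R = 0 := by rw [h1, zero_add] at hSW; exact hSW
  have h3 : Wᵀ * S = 0 := by
    have := congrArg transpose h1
    rwa [transpose_mul, psd_symm hS, transpose_zero] at this
  have h4 : R * Wᵀ = 0 := by
    have := congrArg transpose h2
    rwa [transpose_mul, psd_symm hR, transpose_zero] at this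
  have h5 : trace (Wᵀ * W) = 0 := by
    nth_rewrite 2 [hW]
    rw [Matrix.mul_sub, ← Matrix.mul_assoc, ← Matrix.mul_assoc, h3, Matrix.zero_mul, sub_zero,
      trace_mul_comm, ← Matrix.mul_assoc, h4, Matrix.zero_mul, trace_zero]
  have h6 : W = 0 := by
    rw [← conjTranspose_eq_transpose_of_trivial] at h5
    exact trace_conjTranspose_mul_self_eq_zero_iff.mp h5
  have h7 : Y * R = S * Y := by rwa [hW, sub_eq_zero] at h6
  rw [eS, eR, Matrix.mul_assoc, trace_mul_comm, Matrix.mul_assoc, ← h7, ← Matrix.mul_assoc]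

lemma psd_smul {A : Matrix n n ℝ} (hA : A.PosSemidef) {c : ℝ} (hc : 0 ≤ c) :
    (c • A).PosSemidef := hA.smul hc

lemma tau_eq {G : Matrix n n ℝ} (hG : G.PosSemidef) : tau G = trace (G * msqrt G) := by
  unfold tau
  rw [msqrt_mul hG]

/-- Convexity of `tau`. -/
lemma tau_add {X Y : Matrix n n ℝ} (hX : X.PosSemidef) (hY : Y.PosSemidef) :
    tau (X + Y) ≤ Real.sqrt 2 * (tau X + tau Y) := by
  set s : ℝ := Real.sqrt 2 with hs
  have hs0 : 0 < s := Real.sqrt_pos.mpr (by norm_num)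
  have hs2 : s * s = 2 := Real.mul_self_sqrt (by norm_num)
  have hR := msqrt_psd (X + Y)
  have hK : ((s / 2) • msqrt (X + Y)).PosSemidef := psd_smul hR (by positivity)
  have h1 := tau_young hX hK
  have h2 := tau_young hY hK
  have e : tau (X + Y) = trace (X * msqrt (X + Y)) + trace (Y * msqrt (X + Y)) := by
    rw [tau_eq (hX.add hY), Matrix.add_mul, trace_add]
  have e3 : trace (msqrt (X + Y) * msqrt (X + Y) * msqrt (X + Y)) = tau (X + Y) := rfl
  simp only [Matrix.mul_smul, Matrix.smul_mul, trace_smul, smul_eq_mul, e3] at h1 h2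
  have h3 : s * (3 / 2 * (s / 2 * (trace (X * msqrt (X + Y)) + trace (Y * msqrt (X + Y))))
      - s / 2 * (s / 2 * (s / 2 * tau (X + Y)))) ≤ s * (tau X + tau Y) := by
    apply mul_le_mul_of_nonneg_left _ hs0.le
    linarith
  rw [← e] at h3
  have h4 : s * (3 / 2 * (s / 2 * tau (X + Y)) - s / 2 * (s / 2 * (s / 2 * tau (X + Y))))
      = tau (X + Y) := by
    have : s * (3 / 2 * (s / 2 * tau (X + Y)) - s / 2 * (s / 2 * (s / 2 * tau (X + Y))))
      = 3 / 4 * (s * s) * tau (X + Y) - 1 / 8 * ((s * s) * (s * s)) * tau (X + Y) := by ring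
    rw [this, hs2]; ring
  linarith

/-- Split a symmetric matrix `D` relative to a positive semidefinite `H`. -/
lemma exists_split {H D : Matrix n n ℝ} (hH : H.PosSemidef) (hD : Dᵀ = D) :
    ∃ D₁ : Matrix n n ℝ, D₁ + D₁ᵀ = D ∧ D₁ * H = H * D₁ᵀ := by
  obtain ⟨U, h, u1, u2, u3, u4⟩ := exists_diag (psd_symm hH)
  have h0 := u4 hH
  set D' : Matrix n n ℝ := Uᵀ * D * U with hD'
  have hD's : ∀ i j, D' j i = D' i j := by
    intro i j
    have : D'ᵀ = D' := by
      rw [hD', transpose_mul, transpose_mul, transpose_transpose, hD, Matrix.mul_assoc]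
    exact congrFun (congrFun this i) j
  set w : n → n → ℝ := fun i j => if h i + h j = 0 then 1 / 2 else h i / (h i + h j) with hw
  have w1 : ∀ i j, w i j + w j i = 1 := by
    intro i j
    simp only [hw]
    by_cases hij : h i + h j = 0
    · have hji : h j + h i = 0 := by rw [add_comm]; exact hij
      rw [if_pos hij, if_pos hji]; norm_num
    · have hji : h j + h i ≠ 0 := by rw [add_comm]; exact hij
      rw [if_neg hij, if_neg hji, add_comm (h j) (h i), ← add_div, div_self hij]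
  have w2 : ∀ i j, w i j * h j = h i * w j i := by
    intro i j
    simp only [hw]
    by_cases hij : h i + h j = 0
    · have hji : h j + h i = 0 := by rw [add_comm]; exact hij
      have e1 : h i = 0 := by linarith [h0 i, h0 j]
      have e2 : h j = 0 := by linarith [h0 i, h0 j]
      rw [if_pos hij, if_pos hji, e1, e2]; norm_num
    · have hji : h j + h i ≠ 0 := by rw [add_comm]; exact hij
      rw [if_neg hij, if_neg hji, add_comm (h j) (h i)]; ring
  set V : Matrix n n ℝ := Matrix.of fun i j => w i j * D' i j with hV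
  have hV1 : V + Vᵀ = D' := by
    ext i j
    simp only [hV, Matrix.add_apply, transpose_apply, of_apply, hD's j i]
    rw [← add_mul, w1, one_mul]
  have hV2 : V * diagonal h = diagonal h * Vᵀ := by
    ext i j
    simp only [hV, mul_diagonal, diagonal_mul, transpose_apply, of_apply]
    rw [hD's i j, mul_right_comm, w2, mul_assoc]
  refine ⟨U * V * Uᵀ, ?_, ?_⟩
  · rw [transpose_mul, transpose_mul, transpose_transpose, ← Matrix.mul_assoc, ← Matrix.add_mul,
      ← Matrix.mul_add, hV1, hD']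
    calc U * (Uᵀ * D * U) * Uᵀ = (U * Uᵀ) * D * (U * Uᵀ) := by simp only [Matrix.mul_assoc]
      _ = D := by rw [u1, Matrix.one_mul, Matrix.mul_one]
  · rw [transpose_mul, transpose_mul, transpose_transpose, u3]
    calc U * V * Uᵀ * (U * diagonal h * Uᵀ) = U * (V * (Uᵀ * U) * diagonal h) * Uᵀ := by
          simp only [Matrix.mul_assoc]
      _ = U * (diagonal h * (Uᵀ * U) * Vᵀ) * Uᵀ := by
          rw [u2, Matrix.mul_one, Matrix.mul_one, hV2]
      _ = U * diagonal h * Uᵀ * (U * (Vᵀ * Uᵀ)) := by simp only [Matrix.mul_assoc]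

/-- Lyapunov positivity. -/
lemma lyap_psd {H E D : Matrix n n ℝ} (hH : H.PosSemidef) (hE : Eᵀ = E)
    (hEq : H * E + E * H = H * D * H) (hker : ∀ x : n → ℝ, H *ᵥ x = 0 → E *ᵥ x = 0)
    (hD : ∀ x : n → ℝ, -(x ⬝ᵥ x) ≤ x ⬝ᵥ (D *ᵥ x)) : (H + E).PosSemidef := by
  have hs : (H + E)ᵀ = H + E := by rw [transpose_add, psd_symm hH, hE]
  have hHerm : (H + E).IsHermitian := by
    rw [Matrix.IsHermitian, conjTranspose_eq_transpose_of_trivial, hs]
  rw [hHerm.posSemidef_iff_eigenvalues_nonneg]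
  intro i
  rw [Pi.zero_apply]
  by_contra hneg
  push Not at hneg
  set l := hHerm.eigenvalues i with hl
  set x : n → ℝ := ⇑(hHerm.eigenvectorBasis i) with hx
  have hev : (H + E) *ᵥ x = l • x := hHerm.mulVec_eigenvectorBasis i
  have hsymdot : ∀ (A : Matrix n n ℝ), Aᵀ = A → ∀ y z : n → ℝ, y ⬝ᵥ (A *ᵥ z) = (A *ᵥ y) ⬝ᵥ z := by
    intro A hA y z
    rw [dotProduct_mulVec, ← mulVec_transpose, hA]
  -- x · (H X + X H) x = 2 l x·Hx
  have e1 : x ⬝ᵥ ((H * (H + E) + (H + E) * H) *ᵥ x) = 2 * l * (x ⬝ᵥ (H *ᵥ x)) := by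
    rw [Matrix.add_mulVec, dotProduct_add, ← Matrix.mulVec_mulVec, ← Matrix.mulVec_mulVec, hev,
      hsymdot _ hs x (H *ᵥ x), hev, Matrix.mulVec_smul, dotProduct_smul, smul_dotProduct]
    simp only [smul_eq_mul]; ring
  have e2 : H * (H + E) + (H + E) * H = (2 : ℝ) • (H * H) + H * D * H := by
    rw [← hEq, Matrix.mul_add, Matrix.add_mul, two_smul]; abel
  have e3 : x ⬝ᵥ ((H * (H + E) + (H + E) * H) *ᵥ x)
      = 2 * ((H *ᵥ x) ⬝ᵥ (H *ᵥ x)) + (H *ᵥ x) ⬝ᵥ (D *ᵥ (H *ᵥ x)) := by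
    rw [e2, Matrix.add_mulVec, dotProduct_add, Matrix.smul_mulVec, dotProduct_smul,
      ← Matrix.mulVec_mulVec, hsymdot H (psd_symm hH), Matrix.mul_assoc, ← Matrix.mulVec_mulVec,
      hsymdot H (psd_symm hH) x, ← Matrix.mulVec_mulVec, smul_eq_mul]
  have h1 := psd_dot hH x
  have h2 := hD (H *ᵥ x)
  have h3 : 0 ≤ (H *ᵥ x) ⬝ᵥ (H *ᵥ x) :=
    Finset.sum_nonneg fun i _ => mul_self_nonneg _
  have h4 : (H *ᵥ x) ⬝ᵥ (H *ᵥ x) = 0 := by
    have : 2 * l * (x ⬝ᵥ (H *ᵥ x)) ≤ 0 := by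
      apply mul_nonpos_of_nonpos_of_nonneg _ h1
      linarith
    linarith
  have h5 : H *ᵥ x = 0 := dotProduct_self_eq_zero.mp h4
  have h6 := hker x h5
  have h7 : l • x = 0 := by
    rw [← hev, Matrix.add_mulVec, h5, h6, add_zero]
  have h8 : x = 0 := by
    rcases smul_eq_zero.mp h7 with h | h
    · linarith
    · exact h
  have h9 : ‖hHerm.eigenvectorBasis i‖ = 1 := hHerm.eigenvectorBasis.orthonormal.1 i
  have h10 : hHerm.eigenvectorBasis i = 0 := by
    ext j
    exact congrFun h8 j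
  rw [h10, norm_zero] at h9
  norm_num at h9

/-- The trace identity behind the gain. Here `E = D₁ H = H D₁ᵀ`. -/
lemma gain_identity {H D D₁ : Matrix n n ℝ} (h1 : D₁ + D₁ᵀ = D)
    (h2 : D₁ * H = H * D₁ᵀ) :
    3 / 4 * trace ((H * H + H * D * H) * (H + D₁ * H)) -
        1 / 4 * trace ((H + D₁ * H) * (H + D₁ * H) * (H + D₁ * H)) +
      (3 / 4 * trace ((H * H - H * D * H) * (H - D₁ * H)) -
        1 / 4 * trace ((H - D₁ * H) * (H - D₁ * H) * (H - D₁ * H))) =
      trace (H * H * H) + 3 / 2 * trace (H * D₁ * H * H * D₁ᵀ) := by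
  obtain ⟨E, hE⟩ : ∃ E, E = D₁ * H := ⟨_, rfl⟩
  rw [← hE] at h2 ⊢
  have hZ : H * D * H = H * E + E * H := by
    rw [← h1, Matrix.mul_add, Matrix.add_mul, Matrix.mul_assoc H D₁ H, ← hE, h2]
  have hEs : E * E = D₁ * H * (H * D₁ᵀ) := by rw [← h2, ← hE]
  have q1 : trace (H * E * E) = trace (H * D₁ * H * H * D₁ᵀ) := by
    rw [Matrix.mul_assoc, hEs]
    simp only [Matrix.mul_assoc]
  have c1 : trace (E * H * E) = trace (H * E * E) := by
    rw [Matrix.mul_assoc, trace_mul_comm]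
  have c2 : trace (E * E * H) = trace (H * E * E) := by
    rw [trace_mul_comm, ← Matrix.mul_assoc]
  have c3 : trace (E * H * H) = trace (H * H * E) := by
    rw [Matrix.mul_assoc, trace_mul_comm]
  have c4 : trace (H * E * H) = trace (H * H * E) := by
    rw [trace_mul_comm, ← Matrix.mul_assoc]
  rw [hZ, ← q1]
  simp only [Matrix.mul_add, Matrix.add_mul, Matrix.mul_sub, Matrix.sub_mul, trace_add, trace_sub,
    c1, c2, c3, c4]
  ring

end basics

section blocks

variable {κ : Type*} [Fintype κ] [DecidableEq κ]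

/-- The `(a,b)` block. -/
def blk (A : Matrix (Bool × κ) (Bool × κ) ℝ) (a b : Bool) : Matrix κ κ ℝ :=
  fun i j => A (a, i) (b, j)

/-- The sign matrix. -/
def sgn (κ : Type*) [DecidableEq κ] : Matrix (Bool × κ) (Bool × κ) ℝ :=
  diagonal fun p => if p.1 then -1 else 1

lemma sgn_transpose : (sgn κ)ᵀ = sgn κ := diagonal_transpose _

lemma sgn_dot (x : Bool × κ → ℝ) : |x ⬝ᵥ (sgn κ *ᵥ x)| ≤ x ⬝ᵥ x := by
  unfold sgn
  simp only [dotProduct, mulVec_diagonal]
  refine (Finset.abs_sum_le_sum_abs _ _).trans (Finset.sum_le_sum fun p _ => ?_)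
  by_cases h : p.1 = true <;> simp [h]

/-- columns in half `b` -/
def colHalf (H : Matrix (Bool × κ) (Bool × κ) ℝ) (b : Bool) : Matrix (Bool × κ) κ ℝ :=
  fun p j => H p (b, j)

lemma colHalf_gram {H : Matrix (Bool × κ) (Bool × κ) ℝ} (hs : Hᵀ = H) (b : Bool) :
    (colHalf H b)ᵀ * colHalf H b = blk (H * H) b b := by
  ext i j
  simp only [colHalf, blk, Matrix.mul_apply, transpose_apply]
  refine Finset.sum_congr rfl fun p _ => ?_
  rw [show H p (b, i) = H (b, i) p from congrFun (congrFun hs (b, i)) p]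

lemma colHalf_false {H : Matrix (Bool × κ) (Bool × κ) ℝ} (hs : Hᵀ = H) :
    colHalf H false * (colHalf H false)ᵀ = (1 / 2 : ℝ) • (H * H + H * sgn κ * H) := by
  ext p q
  have hq : ∀ r, H q r = H r q := fun r => (congrFun (congrFun hs r) q)
  have e0 : ∀ r, (H * sgn κ) p r = H p r * (if r.1 then -1 else 1) := fun r => by
    unfold sgn; rw [mul_diagonal]
  have e1 : (H * H) p q = ∑ r, H p r * H r q := Matrix.mul_apply
  have e2 : (H * sgn κ * H) p q = ∑ r, H p r * (if r.1 then -1 else 1) * H r q := by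
    rw [Matrix.mul_apply]; simp only [e0]
  have e3 : (colHalf H false * (colHalf H false)ᵀ) p q = ∑ j, H p (false, j) * H (false, j) q := by
    rw [Matrix.mul_apply]; simp only [colHalf, transpose_apply, hq]
  rw [e3, Matrix.smul_apply, Matrix.add_apply, e1, e2]
  simp only [Fintype.sum_prod_type, Fintype.sum_bool, smul_eq_mul, if_true, Bool.false_eq_true,
    if_false, mul_neg, mul_one, neg_mul, Finset.sum_neg_distrib]
  ring

lemma colHalf_true {H : Matrix (Bool × κ) (Bool × κ) ℝ} (hs : Hᵀ = H) :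
    colHalf H true * (colHalf H true)ᵀ = (1 / 2 : ℝ) • (H * H - H * sgn κ * H) := by
  ext p q
  have hq : ∀ r, H q r = H r q := fun r => (congrFun (congrFun hs r) q)
  have e0 : ∀ r, (H * sgn κ) p r = H p r * (if r.1 then -1 else 1) := fun r => by
    unfold sgn; rw [mul_diagonal]
  have e1 : (H * H) p q = ∑ r, H p r * H r q := Matrix.mul_apply
  have e2 : (H * sgn κ * H) p q = ∑ r, H p r * (if r.1 then -1 else 1) * H r q := by
    rw [Matrix.mul_apply]; simp only [e0]
  have e3 : (colHalf H true * (colHalf H true)ᵀ) p q = ∑ j, H p (true, j) * H (true, j) q := by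
    rw [Matrix.mul_apply]; simp only [colHalf, transpose_apply, hq]
  rw [e3, Matrix.smul_apply, Matrix.sub_apply, e1, e2]
  simp only [Fintype.sum_prod_type, Fintype.sum_bool, smul_eq_mul, if_true, Bool.false_eq_true,
    if_false, mul_neg, mul_one, neg_mul, Finset.sum_neg_distrib]
  ring

/-- Pinching with gain. -/
lemma pinch_gain {H D₁ : Matrix (Bool × κ) (Bool × κ) ℝ} (hH : H.PosSemidef)
    (h1 : D₁ + D₁ᵀ = sgn κ) (h2 : D₁ * H = H * D₁ᵀ) :
    trace (H * H * H) + 3 / 2 * trace (H * D₁ * H * H * D₁ᵀ) ≤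
      Real.sqrt 2 * (tau (blk (H * H) false false) + tau (blk (H * H) true true)) := by
  set s : ℝ := Real.sqrt 2 with hs
  have hs0 : 0 < s := Real.sqrt_pos.mpr (by norm_num)
  have hs2 : s * s = 2 := Real.mul_self_sqrt (by norm_num)
  have hHs := psd_symm hH
  have hEs : (D₁ * H)ᵀ = D₁ * H := by rw [transpose_mul, hHs, h2]
  have hEq : H * (D₁ * H) + D₁ * H * H = H * sgn κ * H := by
    rw [← h1, Matrix.mul_add, Matrix.add_mul, Matrix.mul_assoc H D₁ H]
    nth_rewrite 2 [h2]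
    rfl
  have hker : ∀ x, H *ᵥ x = 0 → (D₁ * H) *ᵥ x = 0 := fun x hx => by
    rw [← Matrix.mulVec_mulVec, hx, Matrix.mulVec_zero]
  have hP : (H + D₁ * H).PosSemidef := lyap_psd hH hEs hEq hker fun x =>
    neg_le_of_abs_le (sgn_dot x)
  have hM : (H - D₁ * H).PosSemidef := by
    rw [sub_eq_add_neg]
    refine lyap_psd (D := -sgn κ) hH (by rw [transpose_neg, hEs]) ?_ ?_ ?_
    · rw [Matrix.mul_neg, Matrix.neg_mul, Matrix.mul_neg, Matrix.neg_mul, ← hEq, neg_add]
    · intro x hx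
      rw [Matrix.neg_mulVec, hker x hx, neg_zero]
    · intro x
      rw [Matrix.neg_mulVec, dotProduct_neg]
      exact neg_le_neg (le_of_abs_le (sgn_dot x))
  have hK0 : ((s / 2) • (H + D₁ * H)).PosSemidef := psd_smul hP (by positivity)
  have hK1 : ((s / 2) • (H - D₁ * H)).PosSemidef := psd_smul hM (by positivity)
  have y0 := tau_young (psd_mult (colHalf H false)) hK0
  have y1 := tau_young (psd_mult (colHalf H true)) hK1
  rw [tau_flip, colHalf_gram hHs, colHalf_false hHs] at y0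
  rw [tau_flip, colHalf_gram hHs, colHalf_true hHs] at y1
  simp only [Matrix.mul_smul, Matrix.smul_mul, trace_smul, smul_eq_mul] at y0 y1
  have g := gain_identity h1 h2
  set a := trace ((H * H + H * sgn κ * H) * (H + D₁ * H))
  set b := trace ((H + D₁ * H) * (H + D₁ * H) * (H + D₁ * H))
  set c := trace ((H * H - H * sgn κ * H) * (H - D₁ * H))
  set d := trace ((H - D₁ * H) * (H - D₁ * H) * (H - D₁ * H))
  have h3 : s * ((3 / 2 * (s / 2 * (1 / 2 * a)) - 1 / 2 * (s / 2 * (s / 2 * (s / 2 * b)))) +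
      (3 / 2 * (s / 2 * (1 / 2 * c)) - 1 / 2 * (s / 2 * (s / 2 * (s / 2 * d))))) ≤
      s * (tau (blk (H * H) false false) + tau (blk (H * H) true true)) := by
    apply mul_le_mul_of_nonneg_left _ hs0.le
    linarith
  have h4 : s * ((3 / 2 * (s / 2 * (1 / 2 * a)) - 1 / 2 * (s / 2 * (s / 2 * (s / 2 * b)))) +
      (3 / 2 * (s / 2 * (1 / 2 * c)) - 1 / 2 * (s / 2 * (s / 2 * (s / 2 * d))))) =
      3 / 4 * a - 1 / 4 * b + (3 / 4 * c - 1 / 4 * d) := by
    have : s * ((3 / 2 * (s / 2 * (1 / 2 * a)) - 1 / 2 * (s / 2 * (s / 2 * (s / 2 * b)))) +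
      (3 / 2 * (s / 2 * (1 / 2 * c)) - 1 / 2 * (s / 2 * (s / 2 * (s / 2 * d))))) =
      3 / 8 * (s * s) * (a + c) - 1 / 16 * ((s * s) * (s * s)) * (b + d) := by ring
    rw [this, hs2]; ring
  linarith

/-- The Gram matrix of a child. -/
def childGram (A B : Matrix (Bool × κ) (Bool × κ) ℝ) (a b : Bool) : Matrix κ κ ℝ :=
  (blk A a b)ᵀ * blk A a b + blk B b (xor a b) * (blk B b (xor a b))ᵀ

lemma childGram_psd (A B : Matrix (Bool × κ) (Bool × κ) ℝ) (a b : Bool) :
    (childGram A B a b).PosSemidef := (psd_tmul _).add (psd_mult _)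

lemma gram_blk (A B : Matrix (Bool × κ) (Bool × κ) ℝ) (b : Bool) :
    blk (Aᵀ * A + B * Bᵀ) b b = childGram A B false b + childGram A B true b := by
  ext i j
  cases b <;>
  simp only [childGram, blk, Matrix.add_apply, Matrix.mul_apply, transpose_apply,
    Fintype.sum_prod_type, Fintype.sum_bool, Bool.xor_false, Bool.xor_true, Bool.not_false,
    Bool.not_true] <;> ring

lemma piece_drift {A B D₁ : Matrix (Bool × κ) (Bool × κ) ℝ}
    (h1 : D₁ + D₁ᵀ = sgn κ) (h2 : D₁ * msqrt (Aᵀ * A + B * Bᵀ) = msqrt (Aᵀ * A + B * Bᵀ) * D₁ᵀ) :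
    tau (Aᵀ * A + B * Bᵀ) + 3 / 2 * trace (msqrt (Aᵀ * A + B * Bᵀ) * D₁ *
        msqrt (Aᵀ * A + B * Bᵀ) * msqrt (Aᵀ * A + B * Bᵀ) * D₁ᵀ) ≤
      2 * ((tau (childGram A B false false) + tau (childGram A B true false)) +
        (tau (childGram A B false true) + tau (childGram A B true true))) := by
  have hG : (Aᵀ * A + B * Bᵀ).PosSemidef := (psd_tmul A).add (psd_mult B)
  have g := pinch_gain (msqrt_psd (Aᵀ * A + B * Bᵀ)) h1 h2
  rw [show trace (msqrt (Aᵀ * A + B * Bᵀ) * msqrt (Aᵀ * A + B * Bᵀ) * msqrt (Aᵀ * A + B * Bᵀ)) =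
    tau (Aᵀ * A + B * Bᵀ) from rfl] at g
  rw [show blk (msqrt (Aᵀ * A + B * Bᵀ) * msqrt (Aᵀ * A + B * Bᵀ)) false false =
      childGram A B false false + childGram A B true false by rw [msqrt_mul hG, gram_blk],
    show blk (msqrt (Aᵀ * A + B * Bᵀ) * msqrt (Aᵀ * A + B * Bᵀ)) true true =
      childGram A B false true + childGram A B true true by rw [msqrt_mul hG, gram_blk]] at g
  have t0 := tau_add (childGram_psd A B false false) (childGram_psd A B true false)
  have t1 := tau_add (childGram_psd A B false true) (childGram_psd A B true true)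
  have hs0 : 0 < Real.sqrt 2 := Real.sqrt_pos.mpr (by norm_num)
  have hs2 : Real.sqrt 2 * Real.sqrt 2 = 2 := Real.mul_self_sqrt (by norm_num)
  have t2 := mul_le_mul_of_nonneg_left (add_le_add t0 t1) hs0.le
  refine g.trans (t2.trans (le_of_eq ?_))
  rw [← mul_add, ← mul_assoc, hs2]

end blocks

section trilinear

variable {n : Type*} [Fintype n] [DecidableEq n]

/-- Monotonicity of the square root. -/
lemma psd_sub_of_sq {N L : Matrix n n ℝ} (hN : N.PosSemidef) (hL : L.PosSemidef)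
    (h : (L * L - N * N).PosSemidef) : (L - N).PosSemidef := by
  have hs : (L - N)ᵀ = L - N := by rw [transpose_sub, psd_symm hL, psd_symm hN]
  have hHerm : (L - N).IsHermitian := by
    rw [Matrix.IsHermitian, conjTranspose_eq_transpose_of_trivial, hs]
  rw [hHerm.posSemidef_iff_eigenvalues_nonneg]
  intro i
  rw [Pi.zero_apply]
  by_contra hneg
  push Not at hneg
  set l := hHerm.eigenvalues i with hl
  set x : n → ℝ := ⇑(hHerm.eigenvectorBasis i) with hx
  have hev : (L - N) *ᵥ x = l • x := hHerm.mulVec_eigenvectorBasis i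
  have hsymdot : ∀ (A : Matrix n n ℝ), Aᵀ = A → ∀ y z : n → ℝ, y ⬝ᵥ (A *ᵥ z) = (A *ᵥ y) ⬝ᵥ z := by
    intro A hA y z
    rw [dotProduct_mulVec, ← mulVec_transpose, hA]
  have e1 : (2 : ℝ) • (L * L - N * N) = (L - N) * (L + N) + (L + N) * (L - N) := by
    simp only [Matrix.mul_add, Matrix.add_mul, Matrix.mul_sub, Matrix.sub_mul, two_smul]
    abel
  have e2 : 2 * (x ⬝ᵥ ((L * L - N * N) *ᵥ x)) = 2 * l * (x ⬝ᵥ ((L + N) *ᵥ x)) := by
    have : x ⬝ᵥ (((2 : ℝ) • (L * L - N * N)) *ᵥ x) = 2 * l * (x ⬝ᵥ ((L + N) *ᵥ x)) := by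
      rw [e1, Matrix.add_mulVec, dotProduct_add, ← Matrix.mulVec_mulVec, ← Matrix.mulVec_mulVec,
        hev, hsymdot _ hs x, hev, Matrix.mulVec_smul, dotProduct_smul, smul_dotProduct]
      simp only [smul_eq_mul]; ring
    rw [← this, Matrix.smul_mulVec, dotProduct_smul, smul_eq_mul]
  have h0 := psd_dot h x
  have h1 := psd_dot hL x
  have h2 := psd_dot hN x
  have e3 : x ⬝ᵥ ((L + N) *ᵥ x) = x ⬝ᵥ (L *ᵥ x) + x ⬝ᵥ (N *ᵥ x) := by
    rw [Matrix.add_mulVec, dotProduct_add]
  have e4 : x ⬝ᵥ ((L - N) *ᵥ x) = x ⬝ᵥ (L *ᵥ x) - x ⬝ᵥ (N *ᵥ x) := by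
    rw [Matrix.sub_mulVec, dotProduct_sub]
  rw [hev, dotProduct_smul, smul_eq_mul] at e4
  have h3 : x ⬝ᵥ x = 1 := by
    have h9 : ‖hHerm.eigenvectorBasis i‖ = 1 := hHerm.eigenvectorBasis.orthonormal.1 i
    have := EuclideanSpace.real_norm_sq_eq (hHerm.eigenvectorBasis i)
    rw [h9] at this
    rw [dotProduct]
    rw [one_pow] at this
    rw [this]
    exact Finset.sum_congr rfl fun j _ => (sq _).symm
  rw [h3, mul_one] at e4
  rw [e3] at e2
  by_cases hz : x ⬝ᵥ (L *ᵥ x) + x ⬝ᵥ (N *ᵥ x) = 0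
  · linarith
  · have : 0 < x ⬝ᵥ (L *ᵥ x) + x ⬝ᵥ (N *ᵥ x) := lt_of_le_of_ne (by linarith) (Ne.symm hz)
    nlinarith

/-- An orthogonal matrix is a contraction, in the form needed here. -/
lemma orth_bound {D : Matrix n n ℝ} (hD : Dᵀ * D = 1) (x y : n → ℝ) :
    |∑ j, ∑ k, x j * D j k * y k| ≤ 1 / 2 * (∑ j, x j ^ 2 + ∑ k, y k ^ 2) := by
  have e1 : ∑ j, ∑ k, x j * D j k * y k = ∑ j, x j * (D *ᵥ y) j := by
    refine Finset.sum_congr rfl fun j _ => ?_
    rw [Matrix.mulVec, dotProduct, Finset.mul_sum]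
    exact Finset.sum_congr rfl fun k _ => by ring
  have e2 : ∑ j, (D *ᵥ y) j ^ 2 = ∑ k, y k ^ 2 := by
    have h1 : (D *ᵥ y) ⬝ᵥ (D *ᵥ y) = y ⬝ᵥ y := by
      rw [dotProduct_mulVec, ← mulVec_transpose, Matrix.mulVec_mulVec, hD, Matrix.one_mulVec]
    simpa only [dotProduct, ← sq] using h1
  rw [e1, ← e2, ← Finset.sum_add_distrib, Finset.mul_sum]
  refine (Finset.abs_sum_le_sum_abs _ _).trans (Finset.sum_le_sum fun j _ => ?_)
  rw [abs_le]
  constructor
  · nlinarith [sq_nonneg (x j + (D *ᵥ y) j)]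
  · nlinarith [sq_nonneg (x j - (D *ᵥ y) j)]

/-- The region estimate. -/
lemma region_bound {D : Matrix n n ℝ} (hD : Dᵀ * D = 1) (hs : ∀ i j, D j i = D i j) (μ : n → ℝ)
    (p q : n → n → ℝ) (hp : ∀ i j, p i j = 0 ∨ (p i j = 1 ∧ |μ j| ≤ |μ i|))
    (hq : ∀ i j, q i j = 0 ∨ (q i j = 1 ∧ |μ j| ≤ |μ i|)) :
    |∑ i, ∑ j, ∑ k, μ i * (p i j * D i j * μ j) * D j k * (q i k * μ k * D k i)| ≤
      ∑ i, ∑ j, (if |μ j| ≤ |μ i| then |μ i| * μ j ^ 2 * D i j ^ 2 else 0) := by
  refine (Finset.abs_sum_le_sum_abs _ _).trans (Finset.sum_le_sum fun i _ => ?_)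
  have e1 : ∑ j, ∑ k, μ i * (p i j * D i j * μ j) * D j k * (q i k * μ k * D k i) =
      μ i * ∑ j, ∑ k, (p i j * D i j * μ j) * D j k * (q i k * μ k * D k i) := by
    simp only [Finset.mul_sum]
    exact Finset.sum_congr rfl fun j _ => Finset.sum_congr rfl fun k _ => by ring
  rw [e1, abs_mul]
  have h1 := orth_bound hD (fun j => p i j * D i j * μ j) (fun k => q i k * μ k * D k i)
  have h2 : ∀ j, (p i j * D i j * μ j) ^ 2 ≤ (if |μ j| ≤ |μ i| then μ j ^ 2 * D i j ^ 2 else 0) := by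
    intro j
    rcases hp i j with h | ⟨h, h'⟩
    · rw [h]
      split_ifs
      · rw [zero_mul, zero_mul, zero_pow two_ne_zero]; positivity
      · simp
    · rw [h, if_pos h']
      apply le_of_eq; ring
  have h3 : ∀ k, (q i k * μ k * D k i) ^ 2 ≤ (if |μ k| ≤ |μ i| then μ k ^ 2 * D i k ^ 2 else 0) := by
    intro k
    rcases hq i k with h | ⟨h, h'⟩
    · rw [h]
      split_ifs
      · rw [zero_mul, zero_mul, zero_pow two_ne_zero]; positivity
      · simp
    · rw [h, if_pos h', hs i k]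
      apply le_of_eq; ring
  have h4 := Finset.sum_le_sum fun j (_ : j ∈ Finset.univ) => h2 j
  have h5 := Finset.sum_le_sum fun j (_ : j ∈ Finset.univ) => h3 j
  have e2 : ∑ j, (if |μ j| ≤ |μ i| then |μ i| * μ j ^ 2 * D i j ^ 2 else 0) =
      |μ i| * ∑ j, (if |μ j| ≤ |μ i| then μ j ^ 2 * D i j ^ 2 else 0) := by
    rw [Finset.mul_sum]
    refine Finset.sum_congr rfl fun j _ => ?_
    split_ifs <;> ring
  rw [e2]
  apply mul_le_mul_of_nonneg_left _ (abs_nonneg _)
  linarith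

lemma cubic_split (a b c x : ℝ) :
    x = (if b ≤ a then 1 else 0) * (if c ≤ a then 1 else 0) * x +
      (if a < b then 1 else 0) * (if c ≤ b then 1 else 0) * x +
      (if a < c then 1 else 0) * (if b < c then 1 else 0) * x := by
  split_ifs <;> first | (exfalso; linarith) | ring

lemma sum_rot (f : n → n → n → ℝ) : ∑ j, ∑ k, ∑ i, f i j k = ∑ i, ∑ j, ∑ k, f i j k := by
  rw [show ∑ i, ∑ j, ∑ k, f i j k = ∑ j, ∑ i, ∑ k, f i j k from Finset.sum_comm]
  exact Finset.sum_congr rfl fun j _ => Finset.sum_comm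

lemma cubic_bound {D V : Matrix n n ℝ} (hD : Dᵀ * D = 1) (hs : ∀ i j, D j i = D i j)
    (hV : ∀ i j, D i j = V i j + V j i) (μ : n → ℝ) :
    |∑ i, ∑ j, ∑ k, D i j * μ j * D j k * μ k * D k i * μ i| ≤
      12 * ∑ i, ∑ j, |μ i| * μ j ^ 2 * V i j ^ 2 := by
  set Q := ∑ i, ∑ j, (if |μ j| ≤ |μ i| then |μ i| * μ j ^ 2 * D i j ^ 2 else 0) with hQ
  have hle : ∀ i j, (if |μ j| ≤ |μ i| then (1 : ℝ) else 0) = 0 ∨
      ((if |μ j| ≤ |μ i| then (1 : ℝ) else 0) = 1 ∧ |μ j| ≤ |μ i|) := by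
    intro i j
    split_ifs with h
    · exact Or.inr ⟨rfl, h⟩
    · exact Or.inl rfl
  have hlt : ∀ i j, (if |μ j| < |μ i| then (1 : ℝ) else 0) = 0 ∨
      ((if |μ j| < |μ i| then (1 : ℝ) else 0) = 1 ∧ |μ j| ≤ |μ i|) := by
    intro i j
    split_ifs with h
    · exact Or.inr ⟨rfl, h.le⟩
    · exact Or.inl rfl
  have rA := region_bound hD hs μ _ _ hle hle
  have rB := region_bound hD hs μ _ _ hle hlt
  have rC := region_bound hD hs μ _ _ hlt hlt
  rw [← hQ] at rA rB rC
  have e : ∑ i, ∑ j, ∑ k, D i j * μ j * D j k * μ k * D k i * μ i =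
      (∑ i, ∑ j, ∑ k, μ i * ((if |μ j| ≤ |μ i| then (1 : ℝ) else 0) * D i j * μ j) * D j k *
        ((if |μ k| ≤ |μ i| then (1 : ℝ) else 0) * μ k * D k i)) +
      (∑ j, ∑ k, ∑ i, μ j * ((if |μ k| ≤ |μ j| then (1 : ℝ) else 0) * D j k * μ k) * D k i *
        ((if |μ i| < |μ j| then (1 : ℝ) else 0) * μ i * D i j)) +
      (∑ k, ∑ i, ∑ j, μ k * ((if |μ i| < |μ k| then (1 : ℝ) else 0) * D k i * μ i) * D i j *
        ((if |μ j| < |μ k| then (1 : ℝ) else 0) * μ j * D j k)) := by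
    have r1 : (∑ j, ∑ k, ∑ i, μ j * ((if |μ k| ≤ |μ j| then (1 : ℝ) else 0) * D j k * μ k) * D k i *
        ((if |μ i| < |μ j| then (1 : ℝ) else 0) * μ i * D i j)) =
        ∑ i, ∑ j, ∑ k, μ j * ((if |μ k| ≤ |μ j| then (1 : ℝ) else 0) * D j k * μ k) * D k i *
        ((if |μ i| < |μ j| then (1 : ℝ) else 0) * μ i * D i j) :=
      sum_rot fun i j k => μ j * ((if |μ k| ≤ |μ j| then (1 : ℝ) else 0) * D j k * μ k) * D k i *
        ((if |μ i| < |μ j| then (1 : ℝ) else 0) * μ i * D i j)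
    have r2 : (∑ k, ∑ i, ∑ j, μ k * ((if |μ i| < |μ k| then (1 : ℝ) else 0) * D k i * μ i) * D i j *
        ((if |μ j| < |μ k| then (1 : ℝ) else 0) * μ j * D j k)) =
        ∑ i, ∑ j, ∑ k, μ k * ((if |μ i| < |μ k| then (1 : ℝ) else 0) * D k i * μ i) * D i j *
        ((if |μ j| < |μ k| then (1 : ℝ) else 0) * μ j * D j k) := by
      rw [Finset.sum_comm]
      refine Finset.sum_congr rfl fun i _ => ?_
      rw [Finset.sum_comm]
    rw [r1, r2, ← Finset.sum_add_distrib, ← Finset.sum_add_distrib]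
    refine Finset.sum_congr rfl fun i _ => ?_
    rw [← Finset.sum_add_distrib, ← Finset.sum_add_distrib]
    refine Finset.sum_congr rfl fun j _ => ?_
    rw [← Finset.sum_add_distrib, ← Finset.sum_add_distrib]
    refine Finset.sum_congr rfl fun k _ => ?_
    refine (cubic_split |μ i| |μ j| |μ k| _).trans ?_
    ring
  have h3 : |∑ i, ∑ j, ∑ k, D i j * μ j * D j k * μ k * D k i * μ i| ≤ 3 * Q := by
    rw [e]
    refine (abs_add_three _ _ _).trans ?_
    linarith
  have h4 : Q ≤ 4 * ∑ i, ∑ j, |μ i| * μ j ^ 2 * V i j ^ 2 := by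
    have s1 : Q ≤ ∑ i, ∑ j, (2 * (|μ i| * μ j ^ 2 * V i j ^ 2) + 2 * (|μ j| * μ i ^ 2 * V j i ^ 2)) := by
      refine Finset.sum_le_sum fun i _ => Finset.sum_le_sum fun j _ => ?_
      split_ifs with h
      · rw [hV i j]
        have a1 : (V i j + V j i) ^ 2 ≤ 2 * V i j ^ 2 + 2 * V j i ^ 2 := by
          nlinarith [sq_nonneg (V i j - V j i)]
        have a2 : |μ i| * μ j ^ 2 ≤ |μ j| * μ i ^ 2 := by
          rw [← sq_abs (μ j), ← sq_abs (μ i)]
          have b1 := abs_nonneg (μ i)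
          have b2 := abs_nonneg (μ j)
          nlinarith [mul_nonneg b1 b2]
        have a3 : 0 ≤ |μ i| * μ j ^ 2 := by positivity
        have a4 := mul_le_mul_of_nonneg_left a1 a3
        have a5 := mul_le_mul_of_nonneg_right a2 (sq_nonneg (V j i))
        nlinarith
      · positivity
    refine s1.trans (le_of_eq ?_)
    simp only [Finset.sum_add_distrib]
    have s2 : ∑ i, ∑ j, 2 * (|μ j| * μ i ^ 2 * V j i ^ 2) =
        ∑ i, ∑ j, 2 * (|μ i| * μ j ^ 2 * V i j ^ 2) := Finset.sum_comm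
    rw [s2, ← two_mul]
    simp only [Finset.mul_sum]
    exact Finset.sum_congr rfl fun i _ => Finset.sum_congr rfl fun j _ => by ring
  linarith

lemma trace3 {p q r : Type*} [Fintype p] [Fintype q] [Fintype r] (A : Matrix p q ℝ)
    (B : Matrix q r ℝ) (C : Matrix r p ℝ) :
    trace (A * B * C) = ∑ i, ∑ j, ∑ k, A i j * B j k * C k i := by
  simp only [trace, diag, Matrix.mul_apply, Finset.sum_mul]
  exact Finset.sum_congr rfl fun i _ => Finset.sum_comm

lemma trace_diag_mul (a : n → ℝ) (X : Matrix n n ℝ) :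
    trace (diagonal a * X) = ∑ i, a i * X i i := by
  simp only [trace, diag, diagonal_mul]

lemma trace_cubic (D' : Matrix n n ℝ) (μ : n → ℝ) :
    trace ((D' * diagonal μ) * (D' * diagonal μ) * (D' * diagonal μ)) =
      ∑ i, ∑ j, ∑ k, D' i j * μ j * D' j k * μ k * D' k i * μ i := by
  rw [trace3]
  simp only [mul_diagonal]
  exact Finset.sum_congr rfl fun i _ => Finset.sum_congr rfl fun j _ =>
    Finset.sum_congr rfl fun k _ => by ring

/-- The trilinear estimate. -/
lemma trilinear_bound {M H D D₁ : Matrix n n ℝ} (hM : Mᵀ = M) (hH : H.PosSemidef)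
    (hMH : (H * H - M * M).PosSemidef) (hD : D * D = 1) (hDs : Dᵀ = D) (h1 : D₁ + D₁ᵀ = D) :
    |trace (D * M * (D * M) * (D * M))| ≤ 12 * trace (H * D₁ * H * H * D₁ᵀ) := by
  obtain ⟨U, μ, u1, u2, u3, -⟩ := exists_diag hM
  set D' := Uᵀ * D * U with hD'
  set V := Uᵀ * D₁ * U with hV
  have hD's : D'ᵀ = D' := by
    rw [hD', transpose_mul, transpose_mul, transpose_transpose, hDs, Matrix.mul_assoc]
  have hD'o : D'ᵀ * D' = 1 := by
    rw [hD's, hD']
    calc Uᵀ * D * U * (Uᵀ * D * U) = Uᵀ * D * (U * Uᵀ) * D * U := by simp only [Matrix.mul_assoc]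
      _ = Uᵀ * (D * D) * U := by rw [u1, Matrix.mul_one]; simp only [Matrix.mul_assoc]
      _ = 1 := by rw [hD, Matrix.mul_one, u2]
  have hDV : D' = V + Vᵀ := by
    rw [hV, transpose_mul, transpose_mul, transpose_transpose, ← Matrix.mul_assoc, ← Matrix.add_mul,
      ← Matrix.mul_add, h1]
  have e1 : trace (D * M * (D * M) * (D * M)) =
      trace ((D' * diagonal μ) * (D' * diagonal μ) * (D' * diagonal μ)) := by
    have : (D' * diagonal μ) * (D' * diagonal μ) * (D' * diagonal μ) =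
        Uᵀ * (D * M * (D * M) * (D * M)) * U := by
      rw [hD', u3]
      calc Uᵀ * D * U * diagonal μ * (Uᵀ * D * U * diagonal μ) * (Uᵀ * D * U * diagonal μ)
          = Uᵀ * D * U * diagonal μ * (Uᵀ * D * U * diagonal μ) * (Uᵀ * D * U * diagonal μ * (Uᵀ * U)) := by
            rw [u2, Matrix.mul_one]
        _ = _ := by simp only [Matrix.mul_assoc]
    rw [this, trace_mul_comm (Uᵀ * (D * M * (D * M) * (D * M))) U, ← Matrix.mul_assoc U Uᵀ, u1,
      Matrix.one_mul]
  set N := U * diagonal (fun i => |μ i|) * Uᵀ with hN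
  have hNp : N.PosSemidef := psd_conj' (psd_diag fun i => abs_nonneg _) U
  have hNN : N * N = M * M := by
    rw [hN, u3]
    calc U * diagonal (fun i => |μ i|) * Uᵀ * (U * diagonal (fun i => |μ i|) * Uᵀ)
        = U * (diagonal (fun i => |μ i|) * (Uᵀ * U) * diagonal (fun i => |μ i|)) * Uᵀ := by
          simp only [Matrix.mul_assoc]
      _ = U * (diagonal μ * (Uᵀ * U) * diagonal μ) * Uᵀ := by
          rw [u2, Matrix.mul_one, Matrix.mul_one, diagonal_mul_diagonal, diagonal_mul_diagonal]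
          congr 3
          funext i
          exact abs_mul_abs_self _
      _ = _ := by simp only [Matrix.mul_assoc]
  have e2 : ∑ i, ∑ j, |μ i| * μ j ^ 2 * V i j ^ 2 = trace (N * (D₁ * (M * M) * D₁ᵀ)) := by
    have : trace (N * (D₁ * (M * M) * D₁ᵀ)) =
        trace (diagonal (fun i => |μ i|) * (V * (diagonal μ * diagonal μ) * Vᵀ)) := by
      have h : N * (D₁ * (M * M) * D₁ᵀ) =
          U * (diagonal (fun i => |μ i|) * (V * (diagonal μ * diagonal μ) * Vᵀ)) * Uᵀ := by
        rw [hN, u3, hV, transpose_mul, transpose_mul, transpose_transpose]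
        calc U * diagonal (fun i => |μ i|) * Uᵀ *
              (D₁ * (U * diagonal μ * Uᵀ * (U * diagonal μ * Uᵀ)) * D₁ᵀ)
            = U * diagonal (fun i => |μ i|) * Uᵀ *
              (D₁ * (U * diagonal μ * (Uᵀ * U) * (diagonal μ * Uᵀ)) * D₁ᵀ) * (U * Uᵀ) := by
              rw [u1, Matrix.mul_one]; simp only [Matrix.mul_assoc]
          _ = _ := by rw [u2, Matrix.mul_one]; simp only [Matrix.mul_assoc]
      rw [h, trace_mul_comm, ← Matrix.mul_assoc, u2, Matrix.one_mul]
    rw [this, diagonal_mul_diagonal, trace_diag_mul]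
    refine Finset.sum_congr rfl fun i _ => ?_
    rw [Matrix.mul_apply, Finset.mul_sum]
    refine Finset.sum_congr rfl fun j _ => ?_
    rw [mul_diagonal, transpose_apply]
    ring
  have hb := cubic_bound hD'o (fun i j => congrFun (congrFun hD's i) j)
    (fun i j => congrFun (congrFun hDV i) j) μ
  rw [← trace_cubic, ← e1, e2] at hb
  refine hb.trans (mul_le_mul_of_nonneg_left ?_ (by norm_num))
  have hL : (H - N).PosSemidef := psd_sub_of_sq hNp hH (by rwa [hNN])
  have k1 : 0 ≤ trace ((H - N) * (D₁ * (M * M) * D₁ᵀ)) := by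
    apply trace_mul_nonneg hL
    have := psd_mult (D₁ * M)
    rwa [transpose_mul, hM, Matrix.mul_assoc, ← Matrix.mul_assoc M, ← Matrix.mul_assoc] at this
  have k2 : 0 ≤ trace (H * (D₁ * (H * H - M * M) * D₁ᵀ)) :=
    trace_mul_nonneg hH (psd_conj' hMH D₁)
  rw [Matrix.sub_mul, trace_sub] at k1
  rw [Matrix.mul_sub, Matrix.sub_mul, Matrix.mul_sub, trace_sub] at k2
  have e3 : trace (H * D₁ * H * H * D₁ᵀ) = trace (H * (D₁ * (H * H) * D₁ᵀ)) := by
    simp only [Matrix.mul_assoc]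
  rw [e3]
  linarith

end trilinear

section assembly

variable {ι : Type*} [Fintype ι] [DecidableEq ι]

/-- Assemble a `3 × 3` block matrix. -/
def asm (X : Fin 3 → Fin 3 → Matrix ι ι ℝ) : Matrix (Fin 3 × ι) (Fin 3 × ι) ℝ :=
  fun p q => X p.1 q.1 p.2 q.2

lemma asm_mul (X Y : Fin 3 → Fin 3 → Matrix ι ι ℝ) :
    asm X * asm Y = asm fun v w => ∑ u, X v u * Y u w := by
  ext ⟨v, i⟩ ⟨w, j⟩
  simp only [asm, Matrix.mul_apply, Fintype.sum_prod_type, Matrix.sum_apply]

lemma asm_transpose (X : Fin 3 → Fin 3 → Matrix ι ι ℝ) :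
    (asm X)ᵀ = asm fun v w => (X w v)ᵀ := rfl

lemma asm_add (X Y : Fin 3 → Fin 3 → Matrix ι ι ℝ) :
    asm X + asm Y = asm fun v w => X v w + Y v w := rfl

lemma asm_sub (X Y : Fin 3 → Fin 3 → Matrix ι ι ℝ) :
    asm X - asm Y = asm fun v w => X v w - Y v w := rfl

lemma asm_smul (c : ℝ) (X : Fin 3 → Fin 3 → Matrix ι ι ℝ) :
    c • asm X = asm fun v w => c • X v w := rfl

lemma asm_trace (X : Fin 3 → Fin 3 → Matrix ι ι ℝ) :
    trace (asm X) = ∑ v, trace (X v v) := by
  simp only [trace, diag, asm, Fintype.sum_prod_type]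

/-- Block diagonal matrix. -/
def dg (M : Fin 3 → Matrix ι ι ℝ) : Matrix (Fin 3 × ι) (Fin 3 × ι) ℝ :=
  asm fun v w => if v = w then M v else 0

lemma dg_mul (M N : Fin 3 → Matrix ι ι ℝ) : dg M * dg N = dg fun v => M v * N v := by
  unfold dg
  rw [asm_mul]
  congr 1
  funext v w
  by_cases h : v = w
  · subst h
    simp
  · simp [h]

lemma dg_transpose (M : Fin 3 → Matrix ι ι ℝ) : (dg M)ᵀ = dg fun v => (M v)ᵀ := by
  unfold dg
  rw [asm_transpose]
  congr 1
  funext v w
  by_cases h : v = w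
  · subst h; simp
  · rw [if_neg h, if_neg (Ne.symm h), transpose_zero]

lemma dg_add (M N : Fin 3 → Matrix ι ι ℝ) : dg M + dg N = dg fun v => M v + N v := by
  unfold dg
  rw [asm_add]
  congr 1
  funext v w
  by_cases h : v = w <;> simp [h]

lemma dg_smul (c : ℝ) (M : Fin 3 → Matrix ι ι ℝ) : c • dg M = dg fun v => c • M v := by
  unfold dg
  rw [asm_smul]
  congr 1
  funext v w
  by_cases h : v = w <;> simp [h]

lemma dg_trace (M : Fin 3 → Matrix ι ι ℝ) : trace (dg M) = ∑ v, trace (M v) := by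
  unfold dg
  rw [asm_trace]
  simp

lemma dg_one : dg (fun _ : Fin 3 => (1 : Matrix ι ι ℝ)) = 1 := by
  ext ⟨v, i⟩ ⟨w, j⟩
  simp only [dg, asm]
  by_cases h : v = w
  · subst h
    simp [Matrix.one_apply]
  · simp [h]

lemma dg_psd {M : Fin 3 → Matrix ι ι ℝ} (h : ∀ v, (M v).PosSemidef) : (dg M).PosSemidef := by
  have : dg M = (dg fun v => msqrt (M v))ᵀ * dg fun v => msqrt (M v) := by
    rw [dg_transpose, dg_mul]
    congr 1
    funext v
    rw [psd_symm (msqrt_psd _), msqrt_mul (h v)]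
  rw [this]
  exact psd_tmul _

/-- The symmetric total matrix. -/
def totB (A B C : Matrix ι ι ℝ) : Fin 3 → Fin 3 → Matrix ι ι ℝ :=
  ![![0, A, Cᵀ], ![Aᵀ, 0, B], ![C, Bᵀ, 0]]

/-- The twisted total matrix. -/
def totT (A B C : Matrix ι ι ℝ) : Fin 3 → Fin 3 → Matrix ι ι ℝ :=
  ![![0, A, -Cᵀ], ![-Aᵀ, 0, B], ![C, -Bᵀ, 0]]

/-- The three Gram matrices. -/
def gram3 (A B C : Matrix ι ι ℝ) : Fin 3 → Matrix ι ι ℝ :=
  ![Cᵀ * C + A * Aᵀ, Aᵀ * A + B * Bᵀ, Bᵀ * B + C * Cᵀ]

lemma totB_symm (A B C : Matrix ι ι ℝ) : (asm (totB A B C))ᵀ = asm (totB A B C) := by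
  rw [asm_transpose]
  congr 1
  funext v w
  fin_cases v <;> fin_cases w <;> simp [totB]

lemma tot_identity (A B C : Matrix ι ι ℝ) :
    (2 : ℝ) • dg (gram3 A B C) - asm (totB A B C) * asm (totB A B C) =
      (asm (totT A B C))ᵀ * asm (totT A B C) := by
  rw [asm_transpose, asm_mul, asm_mul]
  unfold dg
  rw [asm_smul, asm_sub]
  congr 1
  funext v w
  fin_cases v <;> fin_cases w <;>
    simp [totB, totT, gram3, Fin.sum_univ_three, two_smul] <;> abel

lemma tot_trace (A B C D : Matrix ι ι ℝ) (hD : Dᵀ = D) :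
    trace (dg (fun _ => D) * asm (totB A B C) * (dg (fun _ => D) * asm (totB A B C)) *
      (dg (fun _ => D) * asm (totB A B C))) = 6 * trace (D * A * (D * B) * (D * C)) := by
  have e : dg (fun _ => D) * asm (totB A B C) = asm fun v w => D * totB A B C v w := by
    unfold dg
    rw [asm_mul]
    congr 1
    funext v w
    simp
  have cyc : ∀ X Y Z : Matrix ι ι ℝ, trace (X * Y * Z) = trace (Y * Z * X) := by
    intro X Y Z
    rw [Matrix.mul_assoc, trace_mul_comm]
  have tr : ∀ X Y Z : Matrix ι ι ℝ,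
      trace (D * Xᵀ * (D * Yᵀ) * (D * Zᵀ)) = trace (D * Z * (D * Y) * (D * X)) := by
    intro X Y Z
    rw [← trace_transpose (D * Z * (D * Y) * (D * X))]
    simp only [transpose_mul, hD]
    have : Xᵀ * D * (Yᵀ * D * (Zᵀ * D)) = (Xᵀ * (D * Yᵀ) * (D * Zᵀ)) * D := by
      simp only [Matrix.mul_assoc]
    conv_rhs => rw [this, trace_mul_comm]
    simp only [Matrix.mul_assoc]
  rw [e, asm_mul, asm_mul, asm_trace]
  simp only [Fin.sum_univ_three, totB, Matrix.cons_val_zero, Matrix.cons_val_one, Matrix.cons_val,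
    Matrix.mul_zero, Matrix.zero_mul, zero_add, add_zero, trace_add, trace_zero]
  rw [tr C B A, tr A C B, tr B A C, cyc (D * B) (D * C) (D * A), cyc (D * C) (D * A) (D * B)]
  ring

/-- The Bellman functional. -/
noncomputable def bell (A B C : Matrix ι ι ℝ) : ℝ :=
  tau (Aᵀ * A + B * Bᵀ) + tau (Bᵀ * B + C * Cᵀ) + tau (Cᵀ * C + A * Aᵀ)

lemma bell_nonneg (A B C : Matrix ι ι ℝ) : 0 ≤ bell A B C := by
  have h1 := tau_nonneg (Aᵀ * A + B * Bᵀ)
  have h2 := tau_nonneg (Bᵀ * B + C * Cᵀ)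
  have h3 := tau_nonneg (Cᵀ * C + A * Aᵀ)
  unfold bell
  linarith

end assembly

section step

variable {κ : Type*} [Fintype κ] [DecidableEq κ]

lemma sgn_mul_self : sgn κ * sgn κ = 1 := by
  unfold sgn
  rw [diagonal_mul_diagonal, ← diagonal_one]
  congr 1
  funext p
  by_cases h : p.1 = true <;> simp [h]

/-- The children sum. -/
noncomputable def childSum (A B C : Matrix (Bool × κ) (Bool × κ) ℝ) : ℝ :=
  ∑ a : Bool, ∑ b : Bool, bell (blk A a b) (blk B b (xor a b)) (blk C (xor a b) a)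

lemma childSum_eq (A B C : Matrix (Bool × κ) (Bool × κ) ℝ) :
    childSum A B C =
      ((tau (childGram A B false false) + tau (childGram A B true false)) +
        (tau (childGram A B false true) + tau (childGram A B true true))) +
      ((tau (childGram B C false false) + tau (childGram B C true false)) +
        (tau (childGram B C false true) + tau (childGram B C true true))) +
      ((tau (childGram C A false false) + tau (childGram C A true false)) +
        (tau (childGram C A false true) + tau (childGram C A true true))) := by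
  unfold childSum bell childGram
  simp only [Fintype.sum_bool, Bool.xor_false, Bool.xor_true, Bool.not_false, Bool.not_true]
  ring

theorem one_step (A B C : Matrix (Bool × κ) (Bool × κ) ℝ) :
    |trace (sgn κ * A * (sgn κ * B) * (sgn κ * C))| ≤
      8 * Real.sqrt 2 / 3 * (2 * childSum A B C - bell A B C) := by
  set s : ℝ := Real.sqrt 2 with hs
  have hs0 : 0 < s := Real.sqrt_pos.mpr (by norm_num)
  have hs2 : s * s = 2 := Real.mul_self_sqrt (by norm_num)
  have hG : ∀ v, (gram3 A B C v).PosSemidef := by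
    intro v
    fin_cases v
    · exact (psd_tmul C).add (psd_mult A)
    · exact (psd_tmul A).add (psd_mult B)
    · exact (psd_tmul B).add (psd_mult C)
  have hsp : ∀ v, ∃ D₁ : Matrix (Bool × κ) (Bool × κ) ℝ, D₁ + D₁ᵀ = sgn κ ∧
      D₁ * msqrt (gram3 A B C v) = msqrt (gram3 A B C v) * D₁ᵀ := fun v =>
    exists_split (msqrt_psd _) sgn_transpose
  choose D₁ hD₁ hD₁' using hsp
  have p0 := piece_drift (A := C) (B := A) (hD₁ 0) (hD₁' 0)
  have p1 := piece_drift (A := A) (B := B) (hD₁ 1) (hD₁' 1)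
  have p2 := piece_drift (A := B) (B := C) (hD₁ 2) (hD₁' 2)
  have hq := trilinear_bound (M := asm (totB A B C)) (H := s • dg (fun v => msqrt (gram3 A B C v)))
    (D := dg fun _ => sgn κ) (D₁ := dg D₁) (totB_symm A B C)
    (psd_smul (dg_psd fun v => msqrt_psd _) hs0.le) ?_ ?_ ?_ ?_
  · rw [tot_trace A B C (sgn κ) sgn_transpose, abs_mul, abs_of_nonneg (by norm_num : (0:ℝ) ≤ 6)] at hq
    simp only [Matrix.smul_mul, Matrix.mul_smul, dg_mul, dg_transpose, dg_smul, dg_trace,
      Fin.sum_univ_three] at hq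
    simp only [trace_smul, smul_eq_mul] at hq
    rw [childSum_eq]
    set q0 := trace (msqrt (gram3 A B C 0) * D₁ 0 * msqrt (gram3 A B C 0) *
      msqrt (gram3 A B C 0) * (D₁ 0)ᵀ) with hq0
    set q1 := trace (msqrt (gram3 A B C 1) * D₁ 1 * msqrt (gram3 A B C 1) *
      msqrt (gram3 A B C 1) * (D₁ 1)ᵀ) with hq1
    set q2 := trace (msqrt (gram3 A B C 2) * D₁ 2 * msqrt (gram3 A B C 2) *
      msqrt (gram3 A B C 2) * (D₁ 2)ᵀ) with hq2
    have p0' : tau (Cᵀ * C + A * Aᵀ) + 3 / 2 * q0 ≤ _ := p0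
    have p1' : tau (Aᵀ * A + B * Bᵀ) + 3 / 2 * q1 ≤ _ := p1
    have p2' : tau (Bᵀ * B + C * Cᵀ) + 3 / 2 * q2 ≤ _ := p2
    have h1 : |trace (sgn κ * A * (sgn κ * B) * (sgn κ * C))| ≤ 4 * s * (q0 + q1 + q2) := by
      have : s * (s * (s * q0)) + s * (s * (s * q1)) + s * (s * (s * q2)) =
          s * s * s * (q0 + q1 + q2) := by ring
      rw [this, hs2] at hq
      linarith
    refine h1.trans ?_
    have h2 : q0 + q1 + q2 ≤ 2 / 3 * (2 *
          (tau (childGram A B false false) + tau (childGram A B true false) +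
                (tau (childGram A B false true) + tau (childGram A B true true)) +
              (tau (childGram B C false false) + tau (childGram B C true false) +
                (tau (childGram B C false true) + tau (childGram B C true true))) +
            (tau (childGram C A false false) + tau (childGram C A true false) +
              (tau (childGram C A false true) + tau (childGram C A true true)))) -
        bell A B C) := by
      unfold bell
      linarith
    have h3 := mul_le_mul_of_nonneg_left h2 (show (0:ℝ) ≤ 4 * s by positivity)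
    refine h3.trans (le_of_eq ?_)
    ring
  · rw [Matrix.smul_mul, Matrix.mul_smul, smul_smul, hs2, dg_mul]
    have : (dg fun v => msqrt (gram3 A B C v) * msqrt (gram3 A B C v)) = dg (gram3 A B C) := by
      congr 1
      funext v
      exact msqrt_mul (hG v)
    rw [this, tot_identity]
    exact psd_tmul _
  · rw [dg_mul, sgn_mul_self, dg_one]
  · rw [dg_transpose, sgn_transpose]
  · rw [dg_transpose, dg_add]
    congr 1
    funext v
    exact hD₁ v

end step

end Vale.Agent.P075
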