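import Mathlib
import Vale.Agent.P075.Defs

/-! Telescoping over the tree of dyadic blocks for P075. -/

open Finset

namespace Vale.Agent.P075

theorem blockSum_shift (K : ℕ) (n : ℕ × ℕ × ℕ) (f : Fin 3 → ℕ → ℕ → ℝ) :
    blockSum K n f = blockSum K (0, 0, 0) (shiftf K n f) := by
  simp [blockSum, shiftf]

theorem shiftf_shiftf (K : ℕ) (a b c : ℕ) (n : ℕ × ℕ × ℕ) (f : Fin 3 → ℕ → ℕ → ℝ) :
    shiftf K (a, b, c) (shiftf (K + 1) n f) =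
      shiftf K (2 * n.1 + a, 2 * n.2.1 + b, 2 * n.2.2 + c) f := by
  have e : ∀ x y z : ℕ, 2 ^ (K + 1) * x + (2 ^ K * y + z) = 2 ^ K * (2 * x + y) + z := by
    intro x y z; rw [pow_succ]; ring
  funext v i j
  fin_cases v <;> simp [shiftf, e]

theorem xor_children (p q a b : ℕ) (ha : a < 2) (hb : b < 2) :
    (2 * p + a) ^^^ (2 * q + b) = 2 * (p ^^^ q) + (a ^^^ b) := by
  have h0 : ∀ n : ℕ, Nat.bit false n = 2 * n := fun n => by simp [Nat.bit_val]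
  have h1 : ∀ n : ℕ, Nat.bit true n = 2 * n + 1 := fun n => by simp [Nat.bit_val]
  interval_cases a <;> interval_cases b
  · rw [add_zero, add_zero, ← h0, ← h0, Nat.xor_bit]; simp [Nat.bit_val]
  · rw [add_zero, ← h0, ← h1, Nat.xor_bit]; simp [Nat.bit_val]
  · rw [add_zero, ← h1, ← h0 q, Nat.xor_bit]; simp [Nat.bit_val]
  · rw [← h1, ← h1, Nat.xor_bit]; simp [Nat.bit_val]

theorem sum_range_two_mul (N : ℕ) (G : ℕ → ℝ) :
    ∑ n ∈ range (2 * N), G n = ∑ n ∈ range N, ∑ a ∈ range 2, G (2 * n + a) := by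
  induction N with
  | zero => simp
  | succ N ih =>
    rw [show 2 * (N + 1) = 2 * N + 1 + 1 by ring, sum_range_succ, sum_range_succ, ih,
      sum_range_succ _ N]
    simp [sum_range_succ]
    ring

theorem sum_children (M : ℕ) (G : ℕ → ℕ → ℝ) :
    ∑ n₀ ∈ range (2 ^ (M + 1)), ∑ n₁ ∈ range (2 ^ (M + 1)), G n₀ n₁ =
      ∑ n₀ ∈ range (2 ^ M), ∑ n₁ ∈ range (2 ^ M), ∑ a ∈ range 2, ∑ b ∈ range 2,
        G (2 * n₀ + a) (2 * n₁ + b) := by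
  rw [show 2 ^ (M + 1) = 2 * 2 ^ M by rw [pow_succ]; ring, sum_range_two_mul]
  apply sum_congr rfl
  intro n₀ _
  rw [sum_comm]
  have : ∀ y ∈ range (2 * 2 ^ M), ∑ x ∈ range 2, G (2 * n₀ + x) y =
      ∑ x ∈ range 2, G (2 * n₀ + x) y := fun _ _ => rfl
  rw [sum_range_two_mul]
  apply sum_congr rfl
  intro n₁ _
  rw [sum_comm]

theorem sum_xor (m n : ℕ) (hn : n < 2 ^ m) (G : ℕ → ℝ) :
    ∑ i ∈ range (2 ^ m), G (i ^^^ n) = ∑ i ∈ range (2 ^ m), G i := by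
  refine sum_nbij' (fun i => i ^^^ n) (fun i => i ^^^ n) ?_ ?_ ?_ ?_ ?_
  · intro i hi
    rw [mem_range] at hi ⊢
    exact Nat.xor_lt_two_pow hi hn
  · intro i hi
    rw [mem_range] at hi ⊢
    exact Nat.xor_lt_two_pow hi hn
  · intro i _
    simp
  · intro i _
    simp
  · intro i _
    simp

theorem sum_xor' (m n : ℕ) (hn : n < 2 ^ m) (G : ℕ → ℝ) :
    ∑ i ∈ range (2 ^ m), G (n ^^^ i) = ∑ i ∈ range (2 ^ m), G i := by
  rw [← sum_xor m n hn G]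
  apply sum_congr rfl
  intro i _
  rw [Nat.xor_comm]

/-- the left-hand side of `FiniteBound` -/
noncomputable def lhs (m : ℕ) (f : Fin 3 → ℕ → ℕ → ℝ) : ℝ :=
  ∑ K ∈ Finset.Icc 1 m, (1 / 2 ^ K : ℝ) *
        ∑ n₀ ∈ Finset.range (2 ^ (m - K)), ∑ n₁ ∈ Finset.range (2 ^ (m - K)),
          |blockSum K (n₀, n₁, n₀ ^^^ n₁) f|

theorem blockSum_smul (K : ℕ) (n : ℕ × ℕ × ℕ) (f : Fin 3 → ℕ → ℕ → ℝ) (t : Fin 3 → ℝ) :
    blockSum K n (fun v i j => t v * f v i j) = (t 0 * t 1 * t 2) * blockSum K n f := by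
  unfold blockSum
  simp_rw [mul_sum]
  apply sum_congr rfl
  intro j₀ _
  apply sum_congr rfl
  intro j₁ _
  apply sum_congr rfl
  intro j₂ _
  ring

theorem lhs_smul (m : ℕ) (f : Fin 3 → ℕ → ℕ → ℝ) (t : Fin 3 → ℝ) (ht : ∀ v, 0 < t v) :
    lhs m (fun v i j => t v * f v i j) = (t 0 * t 1 * t 2) * lhs m f := by
  have h : |t 0 * t 1 * t 2| = t 0 * t 1 * t 2 :=
    abs_of_pos (mul_pos (mul_pos (ht 0) (ht 1)) (ht 2))
  unfold lhs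
  simp_rw [blockSum_smul, abs_mul _ (blockSum _ _ _), h, mul_sum]
  apply sum_congr rfl
  intro K _
  apply sum_congr rfl
  intro n₀ _
  apply sum_congr rfl
  intro n₁ _
  ring

section main

variable {c c1 : ℝ} (W : ℕ → (Fin 3 → ℕ → ℕ → ℝ) → ℝ)

/-- the potential at level `K` -/
noncomputable def Phi (m K : ℕ) (f : Fin 3 → ℕ → ℕ → ℝ) : ℝ :=
  (1 / 2 ^ K : ℝ) * ∑ n₀ ∈ range (2 ^ (m - K)), ∑ n₁ ∈ range (2 ^ (m - K)),
    W K (shiftf K (n₀, n₁, n₀ ^^^ n₁) f)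

theorem level_le
    (hstep : ∀ K f, |blockSum (K + 1) (0, 0, 0) f| ≤
      c * (2 * ∑ a ∈ Finset.range 2, ∑ b ∈ Finset.range 2, W K (shiftf K (a, b, a ^^^ b) f) -
        W (K + 1) f))
    (m K : ℕ) (hK : K + 1 ≤ m) (f : Fin 3 → ℕ → ℕ → ℝ) :
    (1 / 2 ^ (K + 1) : ℝ) *
        ∑ n₀ ∈ Finset.range (2 ^ (m - (K + 1))), ∑ n₁ ∈ Finset.range (2 ^ (m - (K + 1))),
          |blockSum (K + 1) (n₀, n₁, n₀ ^^^ n₁) f| ≤
      c * (Phi W m K f - Phi W m (K + 1) f) := by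
  have h1 : ∀ n₀ n₁ : ℕ, |blockSum (K + 1) (n₀, n₁, n₀ ^^^ n₁) f| ≤
      c * (2 * ∑ a ∈ range 2, ∑ b ∈ range 2,
        W K (shiftf K (2 * n₀ + a, 2 * n₁ + b, (2 * n₀ + a) ^^^ (2 * n₁ + b)) f) -
        W (K + 1) (shiftf (K + 1) (n₀, n₁, n₀ ^^^ n₁) f)) := by
    intro n₀ n₁
    rw [blockSum_shift]
    refine (hstep K _).trans (le_of_eq ?_)
    congr 3
    apply sum_congr rfl
    intro a ha
    apply sum_congr rfl
    intro b hb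
    rw [shiftf_shiftf, xor_children _ _ _ _ (mem_range.1 ha) (mem_range.1 hb)]
  have h2 : Phi W m K f = (1 / 2 ^ K : ℝ) * ∑ n₀ ∈ range (2 ^ (m - (K + 1))),
      ∑ n₁ ∈ range (2 ^ (m - (K + 1))), ∑ a ∈ range 2, ∑ b ∈ range 2,
        W K (shiftf K (2 * n₀ + a, 2 * n₁ + b, (2 * n₀ + a) ^^^ (2 * n₁ + b)) f) := by
    unfold Phi
    rw [show m - K = (m - (K + 1)) + 1 by omega, sum_children]
  rw [h2]
  unfold Phi
  calc (1 / 2 ^ (K + 1) : ℝ) *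
        ∑ n₀ ∈ Finset.range (2 ^ (m - (K + 1))), ∑ n₁ ∈ Finset.range (2 ^ (m - (K + 1))),
          |blockSum (K + 1) (n₀, n₁, n₀ ^^^ n₁) f|
      ≤ (1 / 2 ^ (K + 1) : ℝ) *
        ∑ n₀ ∈ Finset.range (2 ^ (m - (K + 1))), ∑ n₁ ∈ Finset.range (2 ^ (m - (K + 1))),
          c * (2 * ∑ a ∈ range 2, ∑ b ∈ range 2,
        W K (shiftf K (2 * n₀ + a, 2 * n₁ + b, (2 * n₀ + a) ^^^ (2 * n₁ + b)) f) -
        W (K + 1) (shiftf (K + 1) (n₀, n₁, n₀ ^^^ n₁) f)) := by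
        apply mul_le_mul_of_nonneg_left _ (by positivity)
        exact sum_le_sum (fun n₀ _ => sum_le_sum (fun n₁ _ => h1 n₀ n₁))
    _ = _ := by
        simp_rw [← mul_sum, sum_sub_distrib, ← mul_sum]
        have : (1 / 2 ^ K : ℝ) = (1 / 2 ^ (K + 1)) * 2 := by
          rw [pow_succ]; field_simp
        rw [this]
        ring

theorem lhs_le_sum (hc : 0 ≤ c) (hW0 : ∀ K f, 0 ≤ W K f)
    (hcell : ∀ f, W 0 f ≤ c1 * (|f 0 0 0| ^ 3 + |f 1 0 0| ^ 3 + |f 2 0 0| ^ 3))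
    (hstep : ∀ K f, |blockSum (K + 1) (0, 0, 0) f| ≤
      c * (2 * ∑ a ∈ Finset.range 2, ∑ b ∈ Finset.range 2, W K (shiftf K (a, b, a ^^^ b) f) -
        W (K + 1) f))
    (m : ℕ) (f : Fin 3 → ℕ → ℕ → ℝ) :
    lhs m f ≤ c * c1 * ∑ v, ∑ i ∈ range (2 ^ m), ∑ j ∈ range (2 ^ m), |f v i j| ^ 3 := by
  have h1 : lhs m f ≤ c * (Phi W m 0 f - Phi W m m f) := by
    have h2 : lhs m f = ∑ K ∈ range m, (1 / 2 ^ (K + 1) : ℝ) *
        ∑ n₀ ∈ Finset.range (2 ^ (m - (K + 1))), ∑ n₁ ∈ Finset.range (2 ^ (m - (K + 1))),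
          |blockSum (K + 1) (n₀, n₁, n₀ ^^^ n₁) f| := by
      unfold lhs
      rw [Finset.range_eq_Ico, Finset.sum_Ico_add' (fun K => (1 / 2 ^ K : ℝ) *
        ∑ n₀ ∈ Finset.range (2 ^ (m - K)), ∑ n₁ ∈ Finset.range (2 ^ (m - K)),
          |blockSum K (n₀, n₁, n₀ ^^^ n₁) f|) 0 m 1]
      apply sum_congr _ (fun _ _ => rfl)
      ext x; simp only [mem_Icc, mem_Ico]; omega
    rw [h2]
    calc _ ≤ ∑ K ∈ range m, c * (Phi W m K f - Phi W m (K + 1) f) :=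
          sum_le_sum (fun K hK => level_le W hstep m K (by rw [mem_range] at hK; omega) f)
      _ = c * (Phi W m 0 f - Phi W m m f) := by
          rw [← mul_sum, sum_range_sub']
  have h3 : 0 ≤ Phi W m m f := by
    unfold Phi
    apply mul_nonneg (by positivity)
    exact sum_nonneg (fun _ _ => sum_nonneg (fun _ _ => hW0 _ _))
  have h4 : Phi W m 0 f ≤ c1 * ∑ v, ∑ i ∈ range (2 ^ m), ∑ j ∈ range (2 ^ m), |f v i j| ^ 3 := by
    unfold Phi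
    have h5 : ∀ n₀ n₁ : ℕ, W 0 (shiftf 0 (n₀, n₁, n₀ ^^^ n₁) f) ≤
        c1 * (|f 0 n₀ n₁| ^ 3 + |f 1 n₁ (n₀ ^^^ n₁)| ^ 3 + |f 2 (n₀ ^^^ n₁) n₀| ^ 3) := by
      intro n₀ n₁
      refine (hcell _).trans (le_of_eq ?_)
      simp [shiftf]
    rw [pow_zero, Nat.sub_zero, div_one, one_mul]
    calc ∑ n₀ ∈ range (2 ^ m), ∑ n₁ ∈ range (2 ^ m), W 0 (shiftf 0 (n₀, n₁, n₀ ^^^ n₁) f)
        ≤ ∑ n₀ ∈ range (2 ^ m), ∑ n₁ ∈ range (2 ^ m),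
          c1 * (|f 0 n₀ n₁| ^ 3 + |f 1 n₁ (n₀ ^^^ n₁)| ^ 3 + |f 2 (n₀ ^^^ n₁) n₀| ^ 3) :=
          sum_le_sum (fun n₀ _ => sum_le_sum (fun n₁ _ => h5 n₀ n₁))
      _ = c1 * (∑ n₀ ∈ range (2 ^ m), ∑ n₁ ∈ range (2 ^ m), |f 0 n₀ n₁| ^ 3 +
            ∑ n₀ ∈ range (2 ^ m), ∑ n₁ ∈ range (2 ^ m), |f 1 n₁ (n₀ ^^^ n₁)| ^ 3 +
            ∑ n₀ ∈ range (2 ^ m), ∑ n₁ ∈ range (2 ^ m), |f 2 (n₀ ^^^ n₁) n₀| ^ 3) := by
          simp_rw [← mul_sum, sum_add_distrib]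
      _ = c1 * ∑ v, ∑ i ∈ range (2 ^ m), ∑ j ∈ range (2 ^ m), |f v i j| ^ 3 := by
          rw [Fin.sum_univ_three]
          congr 2
          · congr 1
            rw [sum_comm]
            apply sum_congr rfl
            intro n₁ hn₁
            exact sum_xor m n₁ (mem_range.1 hn₁) (fun j => |f 1 n₁ j| ^ 3)
          · rw [sum_comm (f := fun i j => |f 2 i j| ^ 3)]
            apply sum_congr rfl
            intro n₀ hn₀
            exact sum_xor' m n₀ (mem_range.1 hn₀) (fun j => |f 2 j n₀| ^ 3)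
  calc lhs m f ≤ c * (Phi W m 0 f - Phi W m m f) := h1
    _ ≤ c * Phi W m 0 f := mul_le_mul_of_nonneg_left (by linarith) hc
    _ ≤ c * (c1 * ∑ v, ∑ i ∈ range (2 ^ m), ∑ j ∈ range (2 ^ m), |f v i j| ^ 3) :=
        mul_le_mul_of_nonneg_left h4 hc
    _ = _ := by ring

end main

theorem finiteBound_of_step {c c1 : ℝ} (hc : 0 ≤ c) (hc1 : 0 ≤ c1)
    (W : ℕ → (Fin 3 → ℕ → ℕ → ℝ) → ℝ) (hW0 : ∀ K f, 0 ≤ W K f)
    (hcell : ∀ f, W 0 f ≤ c1 * (|f 0 0 0| ^ 3 + |f 1 0 0| ^ 3 + |f 2 0 0| ^ 3))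
    (hstep : ∀ K f, |blockSum (K + 1) (0, 0, 0) f| ≤
      c * (2 * ∑ a ∈ Finset.range 2, ∑ b ∈ Finset.range 2, W K (shiftf K (a, b, a ^^^ b) f) -
        W (K + 1) f)) : FiniteBound (3 * c * c1) := by
  intro m f
  change lhs m f ≤ _
  set A : Fin 3 → ℝ := fun v => ∑ i ∈ range (2 ^ m), ∑ j ∈ range (2 ^ m), |f v i j| ^ 3 with hA
  have hA0 : ∀ v, 0 ≤ A v := fun v =>
    sum_nonneg (fun _ _ => sum_nonneg (fun _ _ => by positivity))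
  set B : Fin 3 → ℝ := fun v => (A v) ^ (1 / 3 : ℝ) with hB
  have hB0 : ∀ v, 0 ≤ B v := fun v => Real.rpow_nonneg (hA0 v) _
  have hBA : ∀ v, B v ^ 3 = A v := by
    intro v
    rw [hB, ← Real.rpow_natCast, ← Real.rpow_mul (hA0 v)]
    norm_num
  change lhs m f ≤ 3 * c * c1 * ∏ v, B v
  have key : ∀ δ : ℝ, 0 < δ → lhs m f ≤ 3 * c * c1 * ∏ v, (B v + δ) := by
    intro δ hδ
    have ht : ∀ v, 0 < (B v + δ)⁻¹ := fun v => inv_pos.2 (by linarith [hB0 v])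
    have h1 := lhs_le_sum W hc hW0 hcell hstep m (fun v i j => (B v + δ)⁻¹ * f v i j)
    rw [lhs_smul m f (fun v => (B v + δ)⁻¹) ht] at h1
    have h2 : ∀ v, ∑ i ∈ range (2 ^ m), ∑ j ∈ range (2 ^ m), |(B v + δ)⁻¹ * f v i j| ^ 3 ≤ 1 := by
      intro v
      have h3 : ∀ i j, |(B v + δ)⁻¹ * f v i j| ^ 3 = ((B v + δ)⁻¹) ^ 3 * |f v i j| ^ 3 := by
        intro i j
        rw [abs_mul, abs_of_pos (ht v), mul_pow]
      simp_rw [h3, ← mul_sum]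
      change ((B v + δ)⁻¹) ^ 3 * A v ≤ 1
      rw [← hBA v, ← mul_pow]
      apply pow_le_one₀
      · exact mul_nonneg (ht v).le (hB0 v)
      · rw [inv_mul_le_iff₀ (by linarith [hB0 v])]
        linarith
    have h4 : ∑ v, ∑ i ∈ range (2 ^ m), ∑ j ∈ range (2 ^ m), |(B v + δ)⁻¹ * f v i j| ^ 3 ≤ 3 := by
      calc _ ≤ ∑ v : Fin 3, (1 : ℝ) := sum_le_sum (fun v _ => h2 v)
        _ = 3 := by simp
    have h5 : (B 0 + δ)⁻¹ * (B 1 + δ)⁻¹ * (B 2 + δ)⁻¹ * lhs m f ≤ c * c1 * 3 :=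
      h1.trans (mul_le_mul_of_nonneg_left h4 (mul_nonneg hc hc1))
    rw [Fin.prod_univ_three]
    have p0 : 0 < B 0 + δ := by linarith [hB0 0]
    have p1 : 0 < B 1 + δ := by linarith [hB0 1]
    have p2 : 0 < B 2 + δ := by linarith [hB0 2]
    have h6 : lhs m f = ((B 0 + δ) * (B 1 + δ) * (B 2 + δ)) *
        ((B 0 + δ)⁻¹ * (B 1 + δ)⁻¹ * (B 2 + δ)⁻¹ * lhs m f) := by
      field_simp
    rw [h6]
    calc _ ≤ ((B 0 + δ) * (B 1 + δ) * (B 2 + δ)) * (c * c1 * 3) :=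
          mul_le_mul_of_nonneg_left h5 (by positivity)
      _ = _ := by ring
  have hlim : Filter.Tendsto (fun δ : ℝ => 3 * c * c1 * ∏ v, (B v + δ))
      (nhdsWithin 0 (Set.Ioi 0)) (nhds (3 * c * c1 * ∏ v, (B v + 0))) := by
    apply Filter.Tendsto.mono_left _ nhdsWithin_le_nhds
    apply Continuous.tendsto
    fun_prop
  simp only [add_zero] at hlim
  apply ge_of_tendsto hlim
  filter_upwards [self_mem_nhdsWithin] with δ hδ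
  exact key δ hδ

end Vale.Agent.P075
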