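import Vale.Agent.P075.Core
import Vale.Agent.P075.Tree

/-! The finite bound, with constant `32`. -/

open Matrix

set_option linter.unusedSectionVars false

namespace Vale.Agent.P075

/-- The cube of dimension `K`. -/
def Cube : ℕ → Type
  | 0 => Unit
  | (K + 1) => Bool × Cube K

instance instFintypeCube : (K : ℕ) → Fintype (Cube K)
  | 0 => inferInstanceAs (Fintype Unit)
  | (K + 1) => @instFintypeProd _ _ _ (instFintypeCube K)

instance instDecidableEqCube : (K : ℕ) → DecidableEq (Cube K)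
  | 0 => inferInstanceAs (DecidableEq Unit)
  | (K + 1) => @instDecidableEqProd _ _ _ (instDecidableEqCube K)

/-- The integer in `[0, 2^K)` of a point of the cube. -/
def cval : (K : ℕ) → Cube K → ℕ
  | 0, _ => 0
  | (K + 1), (b, x) => 2 ^ K * b.toNat + cval K x

lemma sum_cval (K : ℕ) (g : ℕ → ℝ) :
    ∑ x : Cube K, g (cval K x) = ∑ j ∈ Finset.range (2 ^ K), g j := by
  induction K generalizing g with
  | zero =>
    rw [pow_zero, Finset.sum_range_one]
    exact Fintype.sum_unique (fun x : Unit => g (cval 0 x))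
  | succ K ih =>
    have e1 : ∑ x : Cube (K + 1), g (cval (K + 1) x) =
        ∑ b : Bool, ∑ x : Cube K, g (2 ^ K * b.toNat + cval K x) :=
      Fintype.sum_prod_type (fun p : Bool × Cube K => g (cval (K + 1) p))
    rw [e1, Fintype.sum_bool, ih (fun j => g (2 ^ K * true.toNat + j)),
      ih (fun j => g (2 ^ K * false.toNat + j)), pow_succ, mul_two, Finset.sum_range_add]
    simp only [Bool.toNat_true, Bool.toNat_false, mul_one, mul_zero, zero_add]
    rw [add_comm]

/-- The matrix of a function. -/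
def toMat (K : ℕ) (g : ℕ → ℕ → ℝ) : Matrix (Cube K) (Cube K) ℝ :=
  fun x y => g (cval K x) (cval K y)

/-- The functional on functions. -/
noncomputable def bellN (K : ℕ) (f : Fin 3 → ℕ → ℕ → ℝ) : ℝ :=
  bell (toMat K (f 0)) (toMat K (f 1)) (toMat K (f 2))

lemma bellN_nonneg (K : ℕ) (f : Fin 3 → ℕ → ℕ → ℝ) : 0 ≤ bellN K f := bell_nonneg _ _ _

lemma cval_lt (K : ℕ) (x : Cube K) : cval K x < 2 ^ K := by
  induction K with
  | zero => exact Nat.one_pos
  | succ K ih =>
    obtain ⟨b, x⟩ := x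
    have := ih x
    show 2 ^ K * b.toNat + cval K x < 2 ^ (K + 1)
    rw [pow_succ]
    cases b <;> simp <;> omega

/-- The integer of a point of `Bool × Cube K`. -/
def cvalS (K : ℕ) (x : Bool × Cube K) : ℕ := 2 ^ K * x.1.toNat + cval K x.2

/-- The matrix of a function, in block form. -/
def toMatS (K : ℕ) (g : ℕ → ℕ → ℝ) : Matrix (Bool × Cube K) (Bool × Cube K) ℝ :=
  fun x y => g (cvalS K x) (cvalS K y)

lemma sum_cvalS (K : ℕ) (g : ℕ → ℝ) :
    ∑ x : Bool × Cube K, g (cvalS K x) = ∑ j ∈ Finset.range (2 ^ (K + 1)), g j :=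
  sum_cval (K + 1) g

lemma blockSum_eq_trace (K : ℕ) (f : Fin 3 → ℕ → ℕ → ℝ) :
    blockSum (K + 1) (0, 0, 0) f =
      trace (sgn (Cube K) * toMatS K (f 0) * (sgn (Cube K) * toMatS K (f 1)) *
        (sgn (Cube K) * toMatS K (f 2))) := by
  rw [trace3]
  unfold blockSum
  simp only [mul_zero, zero_add]
  have key : ∀ x : Bool × Cube K, (if 2 * cvalS K x < 2 ^ (K + 1) then (1 : ℝ) else -1) =
      if x.1 then -1 else 1 := by
    rintro ⟨b, x⟩
    have h := cval_lt K x
    unfold cvalS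
    rw [pow_succ]
    cases b
    · simp; omega
    · simp; intro hh; omega
  simp only [← sum_cvalS]
  refine Finset.sum_congr rfl fun x _ => Finset.sum_congr rfl fun y _ =>
    Finset.sum_congr rfl fun z _ => ?_
  rw [key, key, key]
  unfold sgn
  rw [diagonal_mul, diagonal_mul, diagonal_mul]
  simp only [toMatS]
  ring

lemma sum_bool_range (g : ℕ → ℝ) : ∑ a : Bool, g a.toNat = ∑ a ∈ Finset.range 2, g a := by
  rw [Fintype.sum_bool, Finset.sum_range_succ, Finset.sum_range_one]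
  simp only [Bool.toNat_true, Bool.toNat_false]
  rw [add_comm]

lemma toNat_xor (a b : Bool) : (xor a b).toNat = a.toNat ^^^ b.toNat := by
  cases a <;> cases b <;> rfl

lemma childSum_eq_bellN (K : ℕ) (f : Fin 3 → ℕ → ℕ → ℝ) :
    childSum (toMatS K (f 0)) (toMatS K (f 1)) (toMatS K (f 2)) =
      ∑ a ∈ Finset.range 2, ∑ b ∈ Finset.range 2, bellN K (shiftf K (a, b, a ^^^ b) f) := by
  rw [← sum_bool_range (fun a => ∑ b ∈ Finset.range 2, bellN K (shiftf K (a, b, a ^^^ b) f))]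
  unfold childSum
  refine Finset.sum_congr rfl fun a _ => ?_
  rw [← sum_bool_range (fun b => bellN K (shiftf K (a.toNat, b, a.toNat ^^^ b) f))]
  refine Finset.sum_congr rfl fun b _ => ?_
  rw [← toNat_xor]
  rfl

lemma bellN_step (K : ℕ) (f : Fin 3 → ℕ → ℕ → ℝ) :
    |blockSum (K + 1) (0, 0, 0) f| ≤ 8 * Real.sqrt 2 / 3 *
      (2 * ∑ a ∈ Finset.range 2, ∑ b ∈ Finset.range 2, bellN K (shiftf K (a, b, a ^^^ b) f) -
        bellN (K + 1) f) := by
  rw [blockSum_eq_trace, ← childSum_eq_bellN]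
  exact one_step _ _ _

lemma tau_unit {u : Type*} [Fintype u] [DecidableEq u] [Unique u] (g : ℝ) (hg : 0 ≤ g)
    (G : Matrix u u ℝ) (hG : ∀ x y, G x y = g) : tau G = Real.sqrt g ^ 3 := by
  have hGp : G.PosSemidef := by
    refine psd_of ?_ fun x => ?_
    · ext i j
      rw [transpose_apply, hG, hG]
    · have e : x ⬝ᵥ (G *ᵥ x) = g * (∑ i, x i) * (∑ i, x i) := by
        simp only [dotProduct, Matrix.mulVec, hG, Finset.mul_sum, Finset.sum_mul]
        exact Finset.sum_congr rfl fun i _ => Finset.sum_congr rfl fun j _ => by ring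
      rw [e, mul_assoc]
      exact mul_nonneg hg (mul_self_nonneg _)
  have h1 := msqrt_mul hGp
  have h2 := (msqrt_psd G).diag_nonneg (i := default)
  have e1 : msqrt G default default * msqrt G default default = g := by
    have := congrFun (congrFun h1 default) default
    rw [hG, Matrix.mul_apply, Fintype.sum_unique] at this
    exact this
  have e2 : msqrt G default default = Real.sqrt g := by
    rw [← e1, Real.sqrt_mul_self h2]
  unfold tau
  rw [h1, trace, Fintype.sum_unique, diag_apply, Matrix.mul_apply, Fintype.sum_unique, hG, e2]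
  nth_rewrite 1 [← Real.mul_self_sqrt hg]
  ring

instance instUniqueCube : Unique (Cube 0) := inferInstanceAs (Unique Unit)

lemma sqrt_cube_le (a b : ℝ) :
    Real.sqrt (a ^ 2 + b ^ 2) ^ 3 ≤ Real.sqrt 2 * (|a| ^ 3 + |b| ^ 3) := by
  set s := Real.sqrt (a ^ 2 + b ^ 2) with hs
  have hs0 : 0 ≤ s := Real.sqrt_nonneg _
  have hs2 : s ^ 2 = |a| ^ 2 + |b| ^ 2 := by
    rw [hs, Real.sq_sqrt (by positivity), sq_abs, sq_abs]
  have ha := abs_nonneg a
  have hb := abs_nonneg b
  set x := |a|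
  set y := |b|
  have h2 : 0 ≤ Real.sqrt 2 := Real.sqrt_nonneg _
  have h22 : Real.sqrt 2 ^ 2 = 2 := Real.sq_sqrt (by norm_num)
  apply le_of_sq_le_sq _ (by positivity)
  have e : (s ^ 3) ^ 2 = (s ^ 2) ^ 3 := by ring
  rw [e, hs2, mul_pow, h22]
  nlinarith [mul_nonneg ha hb, sq_nonneg (x - y), mul_nonneg (sq_nonneg (x - y)) (mul_nonneg ha hb),
    mul_nonneg (sq_nonneg (x - y)) (sq_nonneg (x + y)), sq_nonneg (x ^ 2 - y ^ 2),
    mul_nonneg (sq_nonneg (x - y)) (sq_nonneg (x ^ 2 - y ^ 2)), sq_nonneg (x * y),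
    mul_nonneg (mul_nonneg ha hb) (sq_nonneg (x ^ 2 - y ^ 2)), sq_nonneg (x ^ 3 - y ^ 3),
    sq_nonneg (x * (x - y) ^ 2), sq_nonneg (y * (x - y) ^ 2)]

lemma bellN_cell (f : Fin 3 → ℕ → ℕ → ℝ) :
    bellN 0 f ≤ 2 * Real.sqrt 2 * (|f 0 0 0| ^ 3 + |f 1 0 0| ^ 3 + |f 2 0 0| ^ 3) := by
  have key : ∀ (g h : ℕ → ℕ → ℝ), tau ((toMat 0 g)ᵀ * toMat 0 g + toMat 0 h * (toMat 0 h)ᵀ) =
      Real.sqrt (g 0 0 ^ 2 + h 0 0 ^ 2) ^ 3 := by
    intro g h
    refine tau_unit _ (by positivity) _ fun x y => ?_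
    rw [Matrix.add_apply, Matrix.mul_apply, Matrix.mul_apply, Fintype.sum_unique,
      Fintype.sum_unique]
    show g 0 0 * g 0 0 + h 0 0 * h 0 0 = _
    ring
  unfold bellN bell
  rw [key, key, key]
  have h1 := sqrt_cube_le (f 0 0 0) (f 1 0 0)
  have h2 := sqrt_cube_le (f 1 0 0) (f 2 0 0)
  have h3 := sqrt_cube_le (f 2 0 0) (f 0 0 0)
  linarith

theorem finiteBound : FiniteBound 32 := by
  have h := finiteBound_of_step (c := 8 * Real.sqrt 2 / 3) (c1 := 2 * Real.sqrt 2) (by positivity)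
    (by positivity) bellN bellN_nonneg bellN_cell bellN_step
  have e : 3 * (8 * Real.sqrt 2 / 3) * (2 * Real.sqrt 2) = 32 := by
    have : Real.sqrt 2 * Real.sqrt 2 = 2 := Real.mul_self_sqrt (by norm_num)
    linear_combination 16 * this
  rwa [e] at h

end Vale.Agent.P075
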