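import Mathlib

/-! Definitions for P075, question Q2: the dyadic model of the triangular Hilbert form. -/

open MeasureTheory

namespace Vale.Agent.P075

/-- The dyadic interval `[2^k n, 2^k (n+1))` of length `2^k` and index `n`. -/
def dyadic (k : ℤ) (n : ℕ) : Set ℝ :=
  Set.Ico ((2 : ℝ) ^ k * n) ((2 : ℝ) ^ k * (n + 1))

/-- The left half `[2^k n, 2^k (n+1/2))` of `dyadic k n`. -/
def leftHalf (k : ℤ) (n : ℕ) : Set ℝ :=
  Set.Ico ((2 : ℝ) ^ k * n) ((2 : ℝ) ^ k * (n + 1 / 2))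

/-- The right half `[2^k (n+1/2), 2^k (n+1))` of `dyadic k n`. -/
def rightHalf (k : ℤ) (n : ℕ) : Set ℝ :=
  Set.Ico ((2 : ℝ) ^ k * (n + 1 / 2)) ((2 : ℝ) ^ k * (n + 1))

/-- The Haar function `h_I = 1_{left half} - 1_{right half}` of `I = dyadic k n`. -/
noncomputable def haar (k : ℤ) (n : ℕ) (x : ℝ) : ℝ :=
  (leftHalf k n).indicator (fun _ => (1 : ℝ)) x - (rightHalf k n).indicator (fun _ => (1 : ℝ)) x

/-- The local form `L_I(F₀,F₁,F₂) = 2^{-k} ∫_{I₀×I₁×I₂} F₀(x₀,x₁) F₁(x₁,x₂) F₂(x₂,x₀) ∏ h_{I_v}(x_v)`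
for the triple of dyadic intervals of length `2^k` with indices `n = (n₀,n₁,n₂)`. -/
noncomputable def localForm (k : ℤ) (n : ℕ × ℕ × ℕ) (F : Fin 3 → ℝ × ℝ → ℝ) : ℝ :=
  (2 : ℝ) ^ (-k) * ∫ x in dyadic k n.1 ×ˢ (dyadic k n.2.1 ×ˢ dyadic k n.2.2),
    F 0 (x.1, x.2.1) * F 1 (x.2.1, x.2.2) * F 2 (x.2.2, x.1) *
      (haar k n.1 x.1 * haar k n.2.1 x.2.1 * haar k n.2.2 x.2.2)

/-- The index triples of `𝒜_k`: those whose bitwise XOR vanishes (the same set for every `k`). -/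
def Adm : Set (ℕ × ℕ × ℕ) := {n | n.1 ^^^ n.2.1 ^^^ n.2.2 = 0}

/-- The dyadic form `Λ^d_{S,ε} = ∑_{k ∈ S} ε_k ∑_{I ∈ 𝒜_k} L_I`. -/
noncomputable def dyadicForm (S : Finset ℤ) (ε : ℤ → ℝ) (F : Fin 3 → ℝ × ℝ → ℝ) : ℝ :=
  ∑ k ∈ S, ε k * ∑' n : Adm, localForm k n F

/-- A real, bounded, compactly supported, measurable function. -/
structure IsTest (F : ℝ × ℝ → ℝ) : Prop where
  measurable : Measurable F
  bounded : ∃ M : ℝ, ∀ x, |F x| ≤ M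
  compact : HasCompactSupport F

/-- The `L³([0,∞)²)` norm. -/
noncomputable def norm3 (F : ℝ × ℝ → ℝ) : ℝ :=
  (∫ x in Set.Ici (0 : ℝ) ×ˢ Set.Ici (0 : ℝ), |F x| ^ 3) ^ (1 / 3 : ℝ)

end Vale.Agent.P075
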